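import Vale.Agent.P088.WeakMin

namespace Vale.Agent.P088

open MeasureTheory Matrix
open scoped ContDiff

variable {n N : ℕ}
variable {Ω : Set (Sp n)} {g : Sp n → Matrix (Fin n) (Fin n) ℝ}


lemma contDiff_det {M : Sp n → Matrix (Fin n) (Fin n) ℝ}
    (hM : ∀ i j, ContDiff ℝ ∞ (fun x => M x i j)) : ContDiff ℝ ∞ (fun x => (M x).det) := by
  simp only [Matrix.det_apply]
  refine ContDiff.sum fun σ _ => ?_
  refine ContDiff.const_smul _ ?_
  exact contDiff_prod fun i _ => hM _ _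

lemma contDiff_adjugate {M : Sp n → Matrix (Fin n) (Fin n) ℝ}
    (hM : ∀ i j, ContDiff ℝ ∞ (fun x => M x i j)) (i j : Fin n) :
    ContDiff ℝ ∞ (fun x => (M x).adjugate i j) := by
  simp only [Matrix.adjugate_apply]
  refine contDiff_det fun a b => ?_
  by_cases h : a = j
  · subst h
    simpa [Matrix.updateRow_self] using (contDiff_const : ContDiff ℝ ∞ (fun _ : Sp n => (Pi.single i 1 : Fin n → ℝ) b))
  · simpa [Matrix.updateRow_ne h] using hM a b

lemma contDiffAt_cond (hg : IsMetric Ω g) {x : Sp n} (hx : x ∈ closure Ω) (i j : Fin n) :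
    ContDiffAt ℝ ∞ (fun y => cond g y i j) x := by
  have hdet : ContDiff ℝ ∞ fun y => (g y).det := contDiff_det hg.smooth
  have hadj : ContDiff ℝ ∞ fun y => (g y).adjugate i j := contDiff_adjugate hg.smooth i j
  have : ∀ y, cond g y i j = Real.sqrt (g y).det * (((g y).det)⁻¹ * (g y).adjugate i j) := by
    intro y
    simp [cond, Matrix.inv_def, Ring.inverse_eq_inv']
  simp only [this]
  have hne : (g x).det ≠ 0 := (hg.posDef x hx).det_pos.ne'
  exact (hdet.contDiffAt.sqrt hne).mul ((hdet.contDiffAt.inv hne).mul hadj.contDiffAt)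



/-- squared distance to `y0` -/
noncomputable def rho (y0 z : Sp n) : ℝ := ‖z - y0‖ ^ 2

/-- coordinates of `z - y0` -/
def dvec (y0 z : Sp n) : Fin n → ℝ := fun j => (z - y0) j

lemma contDiff_rho (y0 : Sp n) : ContDiff ℝ ∞ (rho y0) :=
  (contDiff_id.sub contDiff_const).norm_sq ℝ

lemma dcoord_rho (y0 z : Sp n) (i : Fin n) : dcoord (rho y0) z i = 2 * dvec y0 z i := by
  unfold dcoord rho
  have h1 : HasFDerivAt (fun z : Sp n => z - y0) (ContinuousLinearMap.id ℝ (Sp n)) z :=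
    (hasFDerivAt_id z).sub_const y0
  rw [h1.norm_sq.fderiv]
  simp [dvec, EuclideanSpace.inner_single_right]

lemma contDiff_dvec (y0 : Sp n) (j : Fin n) : ContDiff ℝ ∞ (fun z => dvec y0 z j) := by
  have h : ContDiff ℝ ∞ (fun z : Sp n => z - y0) := contDiff_id.sub contDiff_const
  exact (EuclideanSpace.proj (𝕜 := ℝ) j).contDiff.comp h

lemma rho_eq_sum (y0 z : Sp n) : rho y0 z = ∑ j, dvec y0 z j ^ 2 := by
  unfold rho dvec
  rw [EuclideanSpace.real_norm_sq_eq]

/-- the Hopf barrier -/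
noncomputable def bar (y0 : Sp n) (α R : ℝ) (z : Sp n) : ℝ :=
  Real.exp (-α * rho y0 z) - Real.exp (-α * R ^ 2)

lemma contDiff_bar (y0 : Sp n) (α R : ℝ) : ContDiff ℝ ∞ (bar y0 α R) :=
  ((contDiff_const.mul (contDiff_rho y0)).exp).sub contDiff_const

lemma rgrad_bar (y0 : Sp n) (α R : ℝ) (z : Sp n) :
    rgrad (bar y0 α R) z = (-2 * α * Real.exp (-α * rho y0 z)) • dvec y0 z := by
  funext i
  simp only [rgrad, Pi.smul_apply, smul_eq_mul]
  have h1 : DifferentiableAt ℝ (rho y0) z := ((contDiff_rho y0).differentiable (by simp)) z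
  have h2 : HasFDerivAt (fun z => -α * rho y0 z) (-α • fderiv ℝ (rho y0) z) z :=
    h1.hasFDerivAt.const_mul (-α)
  have h3 := (h2.exp.sub_const (Real.exp (-α * R ^ 2))).fderiv
  have h4 := dcoord_rho y0 z i
  unfold dcoord at h4 ⊢
  unfold bar
  rw [h3]
  simp only [_root_.smul_apply, smul_eq_mul, h4]
  ring

lemma bar_pos {y0 : Sp n} {α R : ℝ} (hα : 0 < α) (hR : 0 < R) {z : Sp n}
    (hz : z ∈ Metric.ball y0 R) : 0 < bar y0 α R z := by
  unfold bar rho
  rw [sub_pos, Real.exp_lt_exp]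
  have h1 : ‖z - y0‖ < R := by simpa [dist_eq_norm] using hz
  have h2 : ‖z - y0‖ ^ 2 < R ^ 2 := by
    have := norm_nonneg (z - y0)
    nlinarith
  nlinarith

lemma bar_nonpos {y0 : Sp n} {α R : ℝ} (hα : 0 < α) (hR : 0 < R) {z : Sp n}
    (hz : R ≤ ‖z - y0‖) : bar y0 α R z ≤ 0 := by
  unfold bar rho
  rw [sub_nonpos, Real.exp_le_exp]
  have h2 : R ^ 2 ≤ ‖z - y0‖ ^ 2 := by nlinarith
  nlinarith

lemma bar_le_one {y0 : Sp n} {α R : ℝ} (hα : 0 < α) (z : Sp n) : bar y0 α R z ≤ 1 := by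
  unfold bar rho
  have h1 : Real.exp (-α * ‖z - y0‖ ^ 2) ≤ 1 := by
    rw [Real.exp_le_one_iff]
    have := sq_nonneg ‖z - y0‖
    nlinarith
  have h2 := Real.exp_pos (-α * R ^ 2)
  linarith



lemma dcoord_mul_at {a b : Sp n → ℝ} {x : Sp n} (ha : DifferentiableAt ℝ a x)
    (hb : DifferentiableAt ℝ b x) (i : Fin n) :
    dcoord (fun y => a y * b y) x i = dcoord a x i * b x + a x * dcoord b x i := by
  unfold dcoord
  rw [fderiv_fun_mul ha hb]
  simp [mul_comm]
  ring

/-- `m(z) = a(z) (z - y0)` -/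
noncomputable def mvec (g : Sp n → Matrix (Fin n) (Fin n) ℝ) (y0 z : Sp n) : Fin n → ℝ :=
  cond g z *ᵥ dvec y0 z

/-- divergence of `m` -/
noncomputable def mdiv (g : Sp n → Matrix (Fin n) (Fin n) ℝ) (y0 z : Sp n) : ℝ :=
  ∑ i, dcoord (fun y => mvec g y0 y i) z i

/-- the flux `a ∇v` of the barrier -/
noncomputable def flux (g : Sp n → Matrix (Fin n) (Fin n) ℝ) (y0 : Sp n) (α R : ℝ) (z : Sp n) :
    Fin n → ℝ := cond g z *ᵥ rgrad (bar y0 α R) z

/-- the divergence of the flux -/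
noncomputable def Lbar (g : Sp n → Matrix (Fin n) (Fin n) ℝ) (y0 : Sp n) (α R : ℝ) (z : Sp n) :
    ℝ := ∑ i, dcoord (fun y => flux g y0 α R y i) z i

lemma contDiffAt_mvec (hg : IsMetric Ω g) (y0 : Sp n) {x : Sp n} (hx : x ∈ closure Ω)
    (i : Fin n) : ContDiffAt ℝ ∞ (fun y => mvec g y0 y i) x := by
  simp only [mvec, mulVec, dotProduct]
  exact ContDiffAt.sum fun j _ => (contDiffAt_cond hg hx i j).mul (contDiff_dvec y0 j).contDiffAt

lemma flux_eq (g : Sp n → Matrix (Fin n) (Fin n) ℝ) (y0 : Sp n) (α R : ℝ) (z : Sp n) (i : Fin n) :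
    flux g y0 α R z i = (-2 * α * Real.exp (-α * rho y0 z)) * mvec g y0 z i := by
  rw [flux, mvec, rgrad_bar, mulVec_smul]
  rfl

lemma contDiff_expfac (y0 : Sp n) (α : ℝ) :
    ContDiff ℝ ∞ (fun z => -2 * α * Real.exp (-α * rho y0 z)) :=
  contDiff_const.mul (contDiff_const.mul (contDiff_rho y0)).exp

lemma dcoord_expfac (y0 : Sp n) (α : ℝ) (z : Sp n) (i : Fin n) :
    dcoord (fun z => -2 * α * Real.exp (-α * rho y0 z)) z i
      = 4 * α ^ 2 * Real.exp (-α * rho y0 z) * dvec y0 z i := by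
  have h1 : DifferentiableAt ℝ (rho y0) z := ((contDiff_rho y0).differentiable (by simp)) z
  have h2 : HasFDerivAt (fun z => -α * rho y0 z) (-α • fderiv ℝ (rho y0) z) z :=
    h1.hasFDerivAt.const_mul (-α)
  have h3 := (h2.exp.const_mul (-2 * α)).fderiv
  have h4 := dcoord_rho y0 z i
  unfold dcoord at h4 ⊢
  rw [h3]
  simp only [_root_.smul_apply, smul_eq_mul, h4]
  ring

lemma contDiffAt_flux (hg : IsMetric Ω g) (y0 : Sp n) (α R : ℝ) {x : Sp n} (hx : x ∈ closure Ω)
    (i : Fin n) : ContDiffAt ℝ ∞ (fun y => flux g y0 α R y i) x := by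
  simp only [flux_eq]
  exact (contDiff_expfac y0 α).contDiffAt.mul (contDiffAt_mvec hg y0 hx i)

lemma Lbar_eq (hg : IsMetric Ω g) (y0 : Sp n) (α R : ℝ) {z : Sp n} (hz : z ∈ closure Ω) :
    Lbar g y0 α R z = 2 * α * Real.exp (-α * rho y0 z) *
      (2 * α * qf (cond g z) (dvec y0 z) (dvec y0 z) - mdiv g y0 z) := by
  unfold Lbar
  have h1 : ∀ i, dcoord (fun y => flux g y0 α R y i) z i
      = 4 * α ^ 2 * Real.exp (-α * rho y0 z) * (dvec y0 z i * mvec g y0 z i)
        + (-2 * α * Real.exp (-α * rho y0 z)) * dcoord (fun y => mvec g y0 y i) z i := by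
    intro i
    simp only [flux_eq]
    rw [dcoord_mul_at (((contDiff_expfac y0 α).differentiable (by simp)) z)
      ((contDiffAt_mvec hg y0 hz i).differentiableAt (by simp)), dcoord_expfac]
    ring
  simp only [h1, Finset.sum_add_distrib, ← Finset.mul_sum]
  have h2 : ∑ i, dvec y0 z i * mvec g y0 z i = qf (cond g z) (dvec y0 z) (dvec y0 z) := rfl
  rw [h2]
  unfold mdiv
  ring



lemma continuousOn_dcoord_of_contDiffAt (ho : IsOpen Ω) {b : Sp n → ℝ}
    (hb : ∀ x ∈ Ω, ContDiffAt ℝ ∞ b x) (i : Fin n) :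
    ContinuousOn (fun z => dcoord b z i) Ω := by
  have h1 : ContDiffOn ℝ ∞ b Ω := fun x hx => (hb x hx).contDiffWithinAt
  have h2 := h1.continuousOn_fderiv_of_isOpen ho (by simp)
  exact h2.clm_apply continuousOn_const

lemma continuousOn_mdiv (ho : IsOpen Ω) (hg : IsMetric Ω g) (y0 : Sp n) :
    ContinuousOn (mdiv g y0) Ω := by
  unfold mdiv
  exact continuousOn_finsetSum _ fun i _ =>
    continuousOn_dcoord_of_contDiffAt ho (fun x hx => contDiffAt_mvec hg y0 (subset_closure hx) i) i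

lemma continuous_dvec (y0 : Sp n) : Continuous (dvec y0) :=
  continuous_pi fun j => (contDiff_dvec y0 j).continuous

lemma dvec_ne_zero {y0 z : Sp n} (h : z ≠ y0) : dvec y0 z ≠ 0 := by
  intro h0
  apply h
  have : z - y0 = 0 := by
    ext j
    simpa [dvec] using congrFun h0 j
  exact sub_eq_zero.1 this

lemma exists_alpha (ho : IsOpen Ω) (hg : IsMetric Ω g) (y0 : Sp n) {K : Set (Sp n)}
    (hK : IsCompact K) (hKΩ : K ⊆ Ω) (hy : y0 ∉ K) :
    ∃ α : ℝ, 0 < α ∧ ∀ R : ℝ, ∀ z ∈ K, 0 < Lbar g y0 α R z := by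
  have hq : ContinuousOn (fun z => qf (cond g z) (dvec y0 z) (dvec y0 z)) K :=
    (continuousOn_qf_cond hg (continuous_dvec y0).continuousOn
      (continuous_dvec y0).continuousOn).mono (hKΩ.trans subset_closure)
  have hqpos : ∀ z ∈ K, 0 < qf (cond g z) (dvec y0 z) (dvec y0 z) := by
    intro z hz
    have hP := cond_posDef (hg.posDef z (subset_closure (hKΩ hz)))
    have hne : dvec y0 z ≠ 0 := dvec_ne_zero (fun h => hy (h ▸ hz))
    have := hP.dotProduct_mulVec_pos hne
    simpa [qf] using this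
  have hψ : ContinuousOn (fun z => mdiv g y0 z / (2 * qf (cond g z) (dvec y0 z) (dvec y0 z))) K :=
    ((continuousOn_mdiv ho hg y0).mono hKΩ).div (continuousOn_const.mul hq)
      (fun z hz => by have := hqpos z hz; positivity)
  obtain ⟨C, hC⟩ := hK.bddAbove_image hψ
  refine ⟨max C 0 + 1, by positivity, fun R z hz => ?_⟩
  rw [Lbar_eq hg y0 _ R (subset_closure (hKΩ hz))]
  have h1 : mdiv g y0 z / (2 * qf (cond g z) (dvec y0 z) (dvec y0 z)) ≤ C :=
    hC (Set.mem_image_of_mem _ hz)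
  have h2 := hqpos z hz
  rw [div_le_iff₀ (by positivity)] at h1
  have h3 : C ≤ max C 0 := le_max_left _ _
  have h4 : 0 < 2 * (max C 0 + 1) * qf (cond g z) (dvec y0 z) (dvec y0 z) - mdiv g y0 z := by
    nlinarith
  have h5 : 0 < max C 0 + 1 := by positivity
  have := Real.exp_pos (-(max C 0 + 1) * rho y0 z)
  positivity



lemma integrable_of_continuousOn_of_zero {F : Sp n → ℝ} {K : Set (Sp n)} (hK : IsCompact K)
    (hF : ContinuousOn F K) (h0 : ∀ x, x ∉ K → F x = 0) : Integrable F :=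
  (hF.integrableOn_compact hK).integrable_of_forall_notMem_eq_zero h0

lemma dcoord_eq_zero_of_notMem_tsupport {η : Sp n → ℝ} {x : Sp n} (hx : x ∉ tsupport η)
    (i : Fin n) : dcoord η x i = 0 := by
  unfold dcoord
  rw [fderiv_of_notMem_tsupport ℝ hx]
  simp

lemma continuousOn_flux (hg : IsMetric Ω g) (y0 : Sp n) (α R : ℝ) (i : Fin n) :
    ContinuousOn (fun y => flux g y0 α R y i) (closure Ω) :=
  fun _ hx => (contDiffAt_flux hg y0 α R hx i).continuousAt.continuousWithinAt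

lemma ibp_flux (ho : IsOpen Ω) (hg : IsMetric Ω g) (y0 : Sp n) (α R : ℝ) {η : Sp n → ℝ}
    (hη : ContDiff ℝ ∞ η) {K : Set (Sp n)} (hK : IsCompact K) (hKΩ : K ⊆ Ω)
    (hsupp : tsupport η ⊆ K) :
    ∫ z, qf (cond g z) (rgrad η z) (rgrad (bar y0 α R) z) = - ∫ z, Lbar g y0 α R z * η z := by
  have hfl : ∀ i, ContinuousOn (fun y => flux g y0 α R y i) K := fun i =>
    (continuousOn_flux hg y0 α R i).mono (hKΩ.trans subset_closure)
  have hdfl : ∀ i, ContinuousOn (fun z => dcoord (fun y => flux g y0 α R y i) z i) K := fun i =>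
    (continuousOn_dcoord_of_contDiffAt ho
      (fun x hx => contDiffAt_flux hg y0 α R (subset_closure hx) i) i).mono hKΩ
  have hη0 : ∀ x, x ∉ K → η x = 0 := fun x hx =>
    image_eq_zero_of_notMem_tsupport (fun h => hx (hsupp h))
  have hdη0 : ∀ i x, x ∉ K → dcoord η x i = 0 := fun i x hx =>
    dcoord_eq_zero_of_notMem_tsupport (fun h => hx (hsupp h)) i
  have i1 : ∀ i, Integrable (fun z => dcoord (fun y => flux g y0 α R y i) z i * η z) := fun i =>
    integrable_of_continuousOn_of_zero hK ((hdfl i).mul hη.continuous.continuousOn)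
      (fun x hx => by simp [hη0 x hx])
  have i2 : ∀ i, Integrable (fun z => flux g y0 α R z i * dcoord η z i) := fun i =>
    integrable_of_continuousOn_of_zero hK ((hfl i).mul (continuous_dcoord hη i).continuousOn)
      (fun x hx => by simp [hdη0 i x hx])
  have i3 : ∀ i, Integrable (fun z => flux g y0 α R z i * η z) := fun i =>
    integrable_of_continuousOn_of_zero hK ((hfl i).mul hη.continuous.continuousOn)
      (fun x hx => by simp [hη0 x hx])
  have key : ∀ i, ∫ z, flux g y0 α R z i * dcoord η z i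
      = - ∫ z, dcoord (fun y => flux g y0 α R y i) z i * η z := by
    intro i
    exact integral_mul_fderiv_eq_neg_fderiv_mul_of_integrable (i1 i) (i2 i) (i3 i)
      (fun x hx => (contDiffAt_flux hg y0 α R (subset_closure (hKΩ (hsupp hx))) i).differentiableAt
        (by simp))
      (fun x _ => (hη.differentiable (by simp)) x)
  have h1 : ∀ z, qf (cond g z) (rgrad η z) (rgrad (bar y0 α R) z)
      = ∑ i, flux g y0 α R z i * dcoord η z i := by
    intro z
    simp only [qf, dotProduct, flux, rgrad]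
    exact Finset.sum_congr rfl fun i _ => mul_comm _ _
  have h2 : ∀ z, Lbar g y0 α R z * η z
      = ∑ i, dcoord (fun y => flux g y0 α R y i) z i * η z := by
    intro z
    simp only [Lbar, Finset.sum_mul]
  simp only [h1, h2]
  rw [integral_finsetSum _ (fun i _ => i2 i), integral_finsetSum _ (fun i _ => i1 i),
    ← Finset.sum_neg_distrib]
  exact Finset.sum_congr rfl fun i _ => key i


end Vale.Agent.P088
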