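import Vale.Agent.P088.Defs

namespace Vale.Agent.P088

open MeasureTheory Matrix
open scoped ContDiff

variable {n N : ℕ}

/-! ### algebra of `pair` -/

lemma pair_add_right (P : Matrix (Fin n) (Fin n) ℝ) (X Y Z : Fin n → Fib N) :
    pair P X (Y + Z) = pair P X Y + pair P X Z := by
  simp only [pair, Pi.add_apply, star_add, dotProduct_add, mul_add, Finset.sum_add_distrib]

lemma pair_add_left (P : Matrix (Fin n) (Fin n) ℝ) (X Y Z : Fin n → Fib N) :
    pair P (X + Y) Z = pair P X Z + pair P Y Z := by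
  simp only [pair, Pi.add_apply, add_dotProduct, mul_add, Finset.sum_add_distrib]

lemma pair_zero_right (P : Matrix (Fin n) (Fin n) ℝ) (X : Fin n → Fib N) :
    pair P X 0 = 0 := by
  simp [pair]

lemma pair_zero_left (P : Matrix (Fin n) (Fin n) ℝ) (X : Fin n → Fib N) :
    pair P 0 X = 0 := by
  simp [pair]

lemma pair_neg_right (P : Matrix (Fin n) (Fin n) ℝ) (X Y : Fin n → Fib N) :
    pair P X (-Y) = - pair P X Y := by
  simp [pair, Finset.sum_neg_distrib]

lemma pair_sub_right (P : Matrix (Fin n) (Fin n) ℝ) (X Y Z : Fin n → Fib N) :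
    pair P X (Y - Z) = pair P X Y - pair P X Z := by
  rw [sub_eq_add_neg, pair_add_right, pair_neg_right, sub_eq_add_neg]

lemma re_pair_self (P : Matrix (Fin n) (Fin n) ℝ) (X : Fin n → Fib N) :
    (pair P X X).re = ∑ k, ((fun i => (X i k).re) ⬝ᵥ (P *ᵥ (fun i => (X i k).re))
      + (fun i => (X i k).im) ⬝ᵥ (P *ᵥ (fun i => (X i k).im))) := by
  simp only [pair, dotProduct, mulVec, Complex.re_sum, Pi.star_apply,
    Complex.mul_re, Complex.star_def, Complex.conj_re, Complex.conj_im, Finset.mul_sum,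
    Complex.ofReal_re, Complex.ofReal_im, zero_mul, sub_zero, ← Finset.sum_add_distrib]
  conv_rhs => rw [Finset.sum_comm]
  refine Finset.sum_congr rfl fun i _ => ?_
  conv_rhs => rw [Finset.sum_comm]
  refine Finset.sum_congr rfl fun j _ => Finset.sum_congr rfl fun k _ => ?_
  ring

lemma re_pair_self_nonneg {P : Matrix (Fin n) (Fin n) ℝ} (hP : P.PosDef) (X : Fin n → Fib N) :
    0 ≤ (pair P X X).re := by
  rw [re_pair_self]
  refine Finset.sum_nonneg fun k _ => add_nonneg ?_ ?_
  · simpa using hP.posSemidef.dotProduct_mulVec_nonneg (fun i => (X i k).re)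
  · simpa using hP.posSemidef.dotProduct_mulVec_nonneg (fun i => (X i k).im)

lemma eq_zero_of_re_pair_self {P : Matrix (Fin n) (Fin n) ℝ} (hP : P.PosDef) (X : Fin n → Fib N)
    (h : (pair P X X).re = 0) : X = 0 := by
  rw [re_pair_self] at h
  have h1 : ∀ k, 0 ≤ (fun i => (X i k).re) ⬝ᵥ (P *ᵥ (fun i => (X i k).re)) := fun k => by
    simpa using hP.posSemidef.dotProduct_mulVec_nonneg (fun i => (X i k).re)
  have h2 : ∀ k, 0 ≤ (fun i => (X i k).im) ⬝ᵥ (P *ᵥ (fun i => (X i k).im)) := fun k => by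
    simpa using hP.posSemidef.dotProduct_mulVec_nonneg (fun i => (X i k).im)
  have h3 := (Finset.sum_eq_zero_iff_of_nonneg (fun k _ => add_nonneg (h1 k) (h2 k))).1 h
  funext i k
  have h4 := h3 k (Finset.mem_univ k)
  have h5 : (fun i => (X i k).re) ⬝ᵥ (P *ᵥ (fun i => (X i k).re)) = 0 := by
    linarith [h1 k, h2 k]
  have h6 : (fun i => (X i k).im) ⬝ᵥ (P *ᵥ (fun i => (X i k).im)) = 0 := by
    linarith [h1 k, h2 k]
  have h7 : (fun i => (X i k).re) = 0 := by
    by_contra hne
    have := hP.dotProduct_mulVec_pos hne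
    simp only [star_trivial] at this
    linarith
  have h8 : (fun i => (X i k).im) = 0 := by
    by_contra hne
    have := hP.dotProduct_mulVec_pos hne
    simp only [star_trivial] at this
    linarith
  apply Complex.ext
  · simpa using congrFun h7 i
  · simpa using congrFun h8 i

/-! ### continuity and integrability -/


/-- the matrix `√(det g) g⁻¹` -/
noncomputable def cond (g : Sp n → Matrix (Fin n) (Fin n) ℝ) (x : Sp n) :
    Matrix (Fin n) (Fin n) ℝ := Real.sqrt (g x).det • (g x)⁻¹

lemma pair_smul (c : ℝ) (P : Matrix (Fin n) (Fin n) ℝ) (X Y : Fin n → Fib N) :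
    pair (c • P) X Y = pair P X Y * (c : ℂ) := by
  simp only [pair, Matrix.smul_apply, smul_eq_mul, Complex.ofReal_mul, Finset.sum_mul]
  refine Finset.sum_congr rfl fun i _ => Finset.sum_congr rfl fun j _ => ?_
  ring

lemma dens_eq (g : Sp n → Matrix (Fin n) (Fin n) ℝ)
    (A : Sp n → Fin n → Matrix (Fin N) (Fin N) ℂ) (u v : Sp n → Fib N) (x : Sp n) :
    dens g A u v x = pair (cond g x) (cov A u x) (cov A v x) := by
  rw [dens, cond, pair_smul]

lemma cond_posDef {g : Sp n → Matrix (Fin n) (Fin n) ℝ} {x : Sp n} (h : (g x).PosDef) :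
    (cond g x).PosDef := by
  have h1 : 0 < Real.sqrt (g x).det := Real.sqrt_pos.2 h.det_pos
  exact h.inv.smul h1

lemma continuous_metric {Ω : Set (Sp n)} {g : Sp n → Matrix (Fin n) (Fin n) ℝ}
    (hg : IsMetric Ω g) : Continuous g :=
  continuous_matrix fun i j => (hg.smooth i j).continuous

lemma continuousOn_cond {Ω : Set (Sp n)} {g : Sp n → Matrix (Fin n) (Fin n) ℝ}
    (hg : IsMetric Ω g) (i j : Fin n) : ContinuousOn (fun x => cond g x i j) (closure Ω) := by
  have hc := continuous_metric hg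
  have hdet : Continuous fun x => (g x).det := hc.matrix_det
  have hadj : Continuous fun x => (g x).adjugate i j := (hc.matrix_adjugate).matrix_elem i j
  have : ∀ x, cond g x i j = Real.sqrt (g x).det * (((g x).det)⁻¹ * (g x).adjugate i j) := by
    intro x
    simp [cond, Matrix.inv_def, Ring.inverse_eq_inv']
  simp only [this]
  refine (hdet.sqrt.continuousOn).mul (ContinuousOn.mul ?_ hadj.continuousOn)
  exact hdet.continuousOn.inv₀ fun x hx => (hg.posDef x hx).det_pos.ne'

lemma continuous_dcoord {F : Type*} [NormedAddCommGroup F] [NormedSpace ℝ F]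
    {u : Sp n → F} (hu : ContDiff ℝ ∞ u) (i : Fin n) : Continuous fun x => dcoord u x i :=
  (hu.continuous_fderiv (by simp)).clm_apply continuous_const

lemma continuous_conn {Ω : Set (Sp n)} {A : Sp n → Fin n → Matrix (Fin N) (Fin N) ℂ}
    (hA : IsUnitaryConn Ω A) (i : Fin n) : Continuous fun x => A x i :=
  continuous_matrix fun k l => (hA.smooth i k l).continuous

lemma continuous_cov {Ω : Set (Sp n)} {A : Sp n → Fin n → Matrix (Fin N) (Fin N) ℂ}
    (hA : IsUnitaryConn Ω A) {u : Sp n → Fib N} (hu : ContDiff ℝ ∞ u) (i : Fin n) :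
    Continuous fun x => cov A u x i :=
  (continuous_dcoord hu i).add ((continuous_conn hA i).matrix_mulVec hu.continuous)

lemma continuousOn_dens {Ω : Set (Sp n)} {g : Sp n → Matrix (Fin n) (Fin n) ℝ}
    (hg : IsMetric Ω g) {A : Sp n → Fin n → Matrix (Fin N) (Fin N) ℂ}
    (hA : IsUnitaryConn Ω A) {u v : Sp n → Fib N} (hu : ContDiff ℝ ∞ u) (hv : ContDiff ℝ ∞ v) :
    ContinuousOn (dens g A u v) (closure Ω) := by
  have : dens g A u v = fun x => pair (cond g x) (cov A u x) (cov A v x) := by
    funext x; exact dens_eq g A u v x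
  rw [this]
  unfold pair
  refine continuousOn_finsetSum _ fun i _ => continuousOn_finsetSum _ fun j _ => ?_
  refine ContinuousOn.mul ?_ ?_
  · exact Complex.continuous_ofReal.comp_continuousOn (continuousOn_cond hg i j)
  · exact ((continuous_cov hA hu i).dotProduct (continuous_star.comp (continuous_cov hA hv j))).continuousOn

lemma integrableOn_dens {Ω : Set (Sp n)} (hb : Bornology.IsBounded Ω)
    {g : Sp n → Matrix (Fin n) (Fin n) ℝ}
    (hg : IsMetric Ω g) {A : Sp n → Fin n → Matrix (Fin N) (Fin N) ℂ}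
    (hA : IsUnitaryConn Ω A) {u v : Sp n → Fib N} (hu : ContDiff ℝ ∞ u) (hv : ContDiff ℝ ∞ v) :
    IntegrableOn (dens g A u v) (closure Ω) :=
  (continuousOn_dens hg hA hu hv).integrableOn_compact hb.isCompact_closure


end Vale.Agent.P088
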