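import Vale.Agent.P088.Barrier

namespace Vale.Agent.P088

open MeasureTheory Matrix
open scoped ContDiff

variable {n N : ℕ}
variable {Ω : Set (Sp n)} {g : Sp n → Matrix (Fin n) (Fin n) ℝ}


lemma rgrad_congr {a b : Sp n → ℝ} {x : Sp n} (h : a =ᶠ[nhds x] b) : rgrad a x = rgrad b x := by
  funext i
  simp only [rgrad, dcoord, h.fderiv_eq]

lemma rgrad_comp_neg {B : ℝ → ℝ} (hB : ContDiff ℝ ∞ B) {h : Sp n → ℝ} (hh : ContDiff ℝ ∞ h)
    (x : Sp n) : rgrad (fun y => B (- h y)) x = (-(deriv B (- h x))) • rgrad h x := by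
  funext i
  simp only [rgrad, Pi.smul_apply, smul_eq_mul]
  rw [dcoord_comp_real hB hh.neg, dcoord_neg']
  ring

lemma qf_zero_right (P : Matrix (Fin n) (Fin n) ℝ) (X : Fin n → ℝ) : qf P X 0 = 0 := by
  simp [qf]

lemma qf_zero_left (P : Matrix (Fin n) (Fin n) ℝ) (X : Fin n → ℝ) : qf P 0 X = 0 := by
  simp [qf]

lemma continuousOn_Lbar (ho : IsOpen Ω) (hg : IsMetric Ω g) (y0 : Sp n) (α R : ℝ) :
    ContinuousOn (Lbar g y0 α R) Ω := by
  unfold Lbar
  exact continuousOn_finsetSum _ fun i _ => continuousOn_dcoord_of_contDiffAt ho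
      (fun x hx => contDiffAt_flux hg y0 α R (subset_closure hx) i) i

lemma comparison_aux (ho : IsOpen Ω) (hg : IsMetric Ω g)
    {w : Sp n → ℝ} (hw : IsWeakHarm Ω g w) (hw0 : ∀ x ∈ closure Ω, 0 ≤ w x) {y0 : Sp n}
    {r R R₂ m α δ : ℝ} (hr : 0 < r) (hrR : r < R) (hRR₂ : R < R₂)
    (hball : Metric.closedBall y0 R₂ ⊆ Ω) (hm : 0 < m)
    (hin : ∀ z ∈ Metric.closedBall y0 r, m ≤ w z) (hα : 0 < α)
    (hL : ∀ z ∈ Metric.closedBall y0 R₂, r ≤ ‖z - y0‖ → 0 < Lbar g y0 α R z) (hδ : 0 < δ) :
    ∀ z ∈ closure Ω, 0 ≤ w z - m * bar y0 α R z + δ := by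
  have hR : 0 < R := hr.trans hrR
  have hR₂ : 0 < R₂ := hR.trans hRR₂
  have hB : ContDiff ℝ ∞ expNegInvGlue := expNegInvGlue.contDiff
  set v : Sp n → ℝ := bar y0 α R with hv
  have hvs : ContDiff ℝ ∞ v := contDiff_bar y0 α R
  set h : Sp n → ℝ := fun z => w z - m * v z + δ with hh
  have hhs : ContDiff ℝ ∞ h := (hw.smooth.sub (contDiff_const.mul hvs)).add contDiff_const
  -- (a)
  have hout : ∀ z ∈ closure Ω, (‖z - y0‖ ≤ r ∨ R ≤ ‖z - y0‖) → δ ≤ h z := by
    intro z hz hcase
    rcases hcase with h1 | h1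
    · have h2 : m ≤ w z := hin z (by simpa [dist_eq_norm] using h1)
      have h3 : v z ≤ 1 := bar_le_one hα z
      have : m * v z ≤ m := by nlinarith
      simp only [hh]; linarith
    · have h2 : v z ≤ 0 := bar_nonpos hα hR h1
      have h3 := hw0 z hz
      have : m * v z ≤ 0 := by nlinarith
      simp only [hh]; linarith
  -- (b)
  let χ : ContDiffBump y0 := ⟨R, R₂, hR, hRR₂⟩
  set η : Sp n → ℝ := fun z => χ z * expNegInvGlue (- h z) with hη
  have hηs : ContDiff ℝ ∞ η := χ.contDiff.mul (hB.comp hhs.neg)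
  have hηnn : ∀ z, 0 ≤ η z := fun z => mul_nonneg χ.nonneg (expNegInvGlue.nonneg _)
  -- (c)
  have hηeq : ∀ z ∈ closure Ω, η z = expNegInvGlue (- h z) := by
    intro z hz
    by_cases h1 : ‖z - y0‖ ≤ R
    · have : χ z = 1 := χ.one_of_mem_closedBall (by simpa [dist_eq_norm] using h1)
      simp [hη, this]
    · have h2 := hout z hz (Or.inr (not_le.1 h1).le)
      have : expNegInvGlue (- h z) = 0 := expNegInvGlue.zero_of_nonpos (by linarith)
      simp [hη, this]
  -- (d)
  have hsupp : tsupport η ⊆ Metric.closedBall y0 R₂ := by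
    have h1 : tsupport η ⊆ tsupport χ := tsupport_mul_subset_left
    rw [χ.tsupport_eq] at h1
    exact h1
  have hK₂ : IsCompact (Metric.closedBall y0 R₂) := isCompact_closedBall y0 R₂
  have hη0 : ∀ x, x ∉ Metric.closedBall y0 R₂ → η x = 0 := fun x hx =>
    image_eq_zero_of_notMem_tsupport (fun h => hx (hsupp h))
  have hdη0 : ∀ x, x ∉ Metric.closedBall y0 R₂ → rgrad η x = 0 := fun x hx => by
    funext i
    exact dcoord_eq_zero_of_notMem_tsupport (fun h => hx (hsupp h)) i
  -- (e)
  have hfr : ∀ x ∈ frontier Ω, η x = 0 := by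
    intro x hx
    apply hη0
    intro hx'
    have h1 : x ∈ Ω := hball hx'
    rw [ho.frontier_eq] at hx
    exact hx.2 h1
  -- (f)
  have hgradη : ∀ z ∈ Ω, rgrad η z = (-(deriv expNegInvGlue (- h z))) • rgrad h z := by
    intro z hz
    have h1 : η =ᶠ[nhds z] fun y => expNegInvGlue (- h y) := by
      filter_upwards [ho.mem_nhds hz] with y hy
      exact hηeq y (subset_closure hy)
    rw [rgrad_congr h1, rgrad_comp_neg hB hhs]
  have hgradh : ∀ z, rgrad w z = rgrad h z + m • rgrad v z := by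
    intro z
    funext i
    have d1 : DifferentiableAt ℝ w z := (hw.smooth.differentiable (by simp)) z
    have d2 : DifferentiableAt ℝ v z := (hvs.differentiable (by simp)) z
    have h1 : HasFDerivAt h (fderiv ℝ w z - m • fderiv ℝ v z) z :=
      (d1.hasFDerivAt.sub (d2.hasFDerivAt.const_mul m)).add_const δ
    simp only [rgrad, dcoord, Pi.add_apply, Pi.smul_apply, smul_eq_mul, h1.fderiv]
    simp
  -- (g)
  have hweak := hw.weak η hηs hfr
  have hK₂cl : Metric.closedBall y0 R₂ ⊆ closure Ω := hball.trans subset_closure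
  set F2 : Sp n → ℝ := fun z => qf (cond g z) (rgrad h z) (rgrad η z) with hF2
  set F3 : Sp n → ℝ := fun z => qf (cond g z) (rgrad v z) (rgrad η z) with hF3
  have hF1 : ∀ z, qf (cond g z) (rgrad w z) (rgrad η z) = F2 z + m * F3 z := by
    intro z
    rw [hgradh z, qf_add_left, qf_smul_left]
  have iF2 : Integrable F2 := integrable_of_continuousOn_of_zero hK₂
    ((continuousOn_qf_cond hg (continuous_rgrad hhs).continuousOn
      (continuous_rgrad hηs).continuousOn).mono hK₂cl)
    (fun x hx => by simp only [hF2, hdη0 x hx, qf_zero_right])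
  have iF3 : Integrable F3 := integrable_of_continuousOn_of_zero hK₂
    ((continuousOn_qf_cond hg (continuous_rgrad hvs).continuousOn
      (continuous_rgrad hηs).continuousOn).mono hK₂cl)
    (fun x hx => by simp only [hF3, hdη0 x hx, qf_zero_right])
  have h1 : ∫ z, F2 z + m * F3 z = 0 := by
    unfold sform at hweak
    rw [setIntegral_eq_integral_of_forall_compl_eq_zero] at hweak
    · simpa only [hF1] using hweak
    · intro x hx
      rw [hdη0 x (fun h => hx (hK₂cl h)), qf_zero_right]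
  rw [integral_add iF2 (iF3.const_mul m), integral_const_mul] at h1
  have h3 : ∫ z, F3 z = - ∫ z, Lbar g y0 α R z * η z := by
    rw [← ibp_flux ho hg y0 α R hηs hK₂ hball hsupp]
    refine integral_congr_ae (Filter.Eventually.of_forall fun z => ?_)
    by_cases hz : z ∈ Metric.closedBall y0 R₂
    · exact qf_comm (cond_posDef (hg.posDef z (hK₂cl hz))) _ _
    · simp only [hF3, hdη0 z hz, qf_zero_right, qf_zero_left]
  have h2 : ∫ z, F2 z ≤ 0 := by
    refine integral_nonpos fun z => ?_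
    change F2 z ≤ 0
    by_cases hz : z ∈ Metric.closedBall y0 R₂
    · simp only [hF2, hgradη z (hball hz), qf_smul_right]
      have e1 : 0 ≤ deriv expNegInvGlue (- h z) := expNegInvGlue.monotone.deriv_nonneg
      have e2 := qf_self_nonneg (cond_posDef (hg.posDef z (hK₂cl hz))) (rgrad h z)
      nlinarith
    · simp only [hF2, hdη0 z hz, qf_zero_right, le_refl]
  have hLη : ∀ z, 0 ≤ Lbar g y0 α R z * η z := by
    intro z
    by_cases hz : z ∈ Metric.closedBall y0 R₂
    · by_cases hzr : r ≤ ‖z - y0‖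
      · exact mul_nonneg (hL z hz hzr).le (hηnn z)
      · have e1 := hout z (hK₂cl hz) (Or.inl (not_le.1 hzr).le)
        have e2 : η z = 0 := by
          rw [hηeq z (hK₂cl hz)]
          exact expNegInvGlue.zero_of_nonpos (by linarith)
        simp [e2]
    · simp [hη0 z hz]
  have h4 : 0 ≤ ∫ z, Lbar g y0 α R z * η z := integral_nonneg hLη
  have h5 : ∫ z, Lbar g y0 α R z * η z = 0 := by
    rw [h3] at h1
    nlinarith
  have hcl : closure (Metric.ball y0 R₂) = Metric.closedBall y0 R₂ := closure_ball y0 hR₂.ne'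
  have h6 : ∀ z ∈ Metric.closedBall y0 R₂, Lbar g y0 α R z * η z = 0 := by
    have := eq_zero_of_setIntegral_eq_zero (Ω := Metric.ball y0 R₂) Metric.isOpen_ball
      Metric.isBounded_ball (F := fun z => Lbar g y0 α R z * η z)
      (by rw [hcl]; exact ((continuousOn_Lbar ho hg y0 α R).mono hball).mul
            hηs.continuous.continuousOn)
      (fun z _ => hLη z)
      (by
        rw [hcl, setIntegral_eq_integral_of_forall_compl_eq_zero]
        · exact h5
        · intro x hx; simp [hη0 x hx])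
    rwa [hcl] at this
  intro z hz
  by_cases hzr : ‖z - y0‖ ≤ r
  · exact hδ.le.trans (hout z hz (Or.inl hzr))
  by_cases hzR : R ≤ ‖z - y0‖
  · exact hδ.le.trans (hout z hz (Or.inr hzR))
  have hzK : z ∈ Metric.closedBall y0 R₂ := by
    rw [Metric.mem_closedBall, dist_eq_norm]
    linarith [not_le.1 hzR]
  have e1 := h6 z hzK
  have e2 := hL z hzK (not_le.1 hzr).le
  have e3 : η z = 0 := by
    rcases mul_eq_zero.1 e1 with e | e
    · exact absurd e e2.ne'
    · exact e
  rw [hηeq z hz] at e3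
  have := expNegInvGlue.zero_iff_nonpos.1 e3
  change 0 ≤ h z
  linarith


end Vale.Agent.P088
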