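import Mathlib

/-!
# P088: Dirichlet data of a metric and a unitary connection on a Euclidean domain

Setting: `M = closure Ω` for a bounded connected open set `Ω` of `ℝ^n`, with boundary `frontier Ω`.
Smooth objects on `M` are restrictions of smooth objects on `ℝ^n`.
-/

namespace Vale.Agent.P088

open MeasureTheory Matrix
open scoped ContDiff

/-- The ambient space `ℝ^n`. -/
abbrev Sp (n : ℕ) := EuclideanSpace ℝ (Fin n)

/-- The fibre `ℂ^N` of the trivial bundle. -/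
abbrev Fib (N : ℕ) := Fin N → ℂ

variable {n N : ℕ}

/-- Derivative of `u` at `x` in the `i`-th coordinate direction. -/
noncomputable def dcoord {F : Type*} [NormedAddCommGroup F] [NormedSpace ℝ F]
    (u : Sp n → F) (x : Sp n) (i : Fin n) : F :=
  fderiv ℝ u x (EuclideanSpace.single i 1)

/-- The components `(d_A u)_i = ∂_i u + A_i u` of the covariant derivative. -/
noncomputable def cov (A : Sp n → Fin n → Matrix (Fin N) (Fin N) ℂ) (u : Sp n → Fib N)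
    (x : Sp n) (i : Fin n) : Fib N :=
  dcoord u x i + (A x i) *ᵥ (u x)

/-- `∑_{i j} P_{ij} ⟨X_i, Y_j⟩` with the standard Hermitian product of `ℂ^N`
(linear in `X`, conjugate linear in `Y`). -/
noncomputable def pair (P : Matrix (Fin n) (Fin n) ℝ) (X Y : Fin n → Fib N) : ℂ :=
  ∑ i, ∑ j, ((P i j : ℝ) : ℂ) * (X i ⬝ᵥ star (Y j))

/-- The integrand `⟨d_A u, d_A v⟩_g dV_g = g^{ij} ⟨(d_A u)_i, (d_A v)_j⟩ √(det g)`. -/
noncomputable def dens (g : Sp n → Matrix (Fin n) (Fin n) ℝ)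
    (A : Sp n → Fin n → Matrix (Fin N) (Fin N) ℂ) (u v : Sp n → Fib N) (x : Sp n) : ℂ :=
  pair ((g x)⁻¹) (cov A u x) (cov A v x) * ((Real.sqrt (g x).det : ℝ) : ℂ)

/-- The sesquilinear energy form `∫_M ⟨d_A u, d_A v⟩_g dV_g`, `M = closure Ω`. -/
noncomputable def energy (Ω : Set (Sp n)) (g : Sp n → Matrix (Fin n) (Fin n) ℝ)
    (A : Sp n → Fin n → Matrix (Fin N) (Fin N) ℂ) (u v : Sp n → Fib N) : ℂ :=
  ∫ x in closure Ω, dens g A u v x

/-- `g` is a smooth Riemannian metric on `M = closure Ω`. -/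
structure IsMetric (Ω : Set (Sp n)) (g : Sp n → Matrix (Fin n) (Fin n) ℝ) : Prop where
  smooth : ∀ i j, ContDiff ℝ ∞ (fun x => g x i j)
  posDef : ∀ x ∈ closure Ω, (g x).PosDef

/-- `A` is a smooth `u(N)`-valued one-form on `M = closure Ω`. -/
structure IsUnitaryConn (Ω : Set (Sp n)) (A : Sp n → Fin n → Matrix (Fin N) (Fin N) ℂ) :
    Prop where
  smooth : ∀ i k l, ContDiff ℝ ∞ (fun x => A x i k l)
  skew : ∀ x ∈ closure Ω, ∀ i, (A x i)ᴴ = - A x i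

/-- `u` is the smooth solution of `d_A^* d_A u = 0` in `M` with `u = f` on the boundary;
the equation is written in its variational form. -/
structure IsSol (Ω : Set (Sp n)) (g : Sp n → Matrix (Fin n) (Fin n) ℝ)
    (A : Sp n → Fin n → Matrix (Fin N) (Fin N) ℂ) (f u : Sp n → Fib N) : Prop where
  smooth : ContDiff ℝ ∞ u
  bdry : ∀ x ∈ frontier Ω, u x = f x
  weak : ∀ η : Sp n → Fib N, ContDiff ℝ ∞ η → (∀ x ∈ frontier Ω, η x = 0) →
    energy Ω g A u η = 0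

/-- `f` is a smooth boundary datum whose support on the boundary is contained in `Γ`. -/
structure IsDatum (Ω Γ : Set (Sp n)) (f : Sp n → Fib N) : Prop where
  smooth : ContDiff ℝ ∞ f
  supp : closure {x | x ∈ frontier Ω ∧ f x ≠ 0} ⊆ Γ

/-- Equality of the data on `Γ`: for all data `f, h` supported in `Γ` the solutions exist
and `⟨Λ_{g₁,A₁,Γ} f, h⟩ = ⟨Λ_{g₂,A₂,Γ} f, h⟩`. -/
def SameData (Ω Γ : Set (Sp n)) (g₁ : Sp n → Matrix (Fin n) (Fin n) ℝ)
    (A₁ : Sp n → Fin n → Matrix (Fin N) (Fin N) ℂ) (g₂ : Sp n → Matrix (Fin n) (Fin n) ℝ)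
    (A₂ : Sp n → Fin n → Matrix (Fin N) (Fin N) ℂ) : Prop :=
  ∀ f h : Sp n → Fib N, IsDatum Ω Γ f → IsDatum Ω Γ h →
    ∃ u₁ v₁ u₂ v₂ : Sp n → Fib N,
      IsSol Ω g₁ A₁ f u₁ ∧ IsSol Ω g₁ A₁ h v₁ ∧ IsSol Ω g₂ A₂ f u₂ ∧ IsSol Ω g₂ A₂ h v₂ ∧
        energy Ω g₁ A₁ u₁ v₁ = energy Ω g₂ A₂ u₂ v₂

/-- Entrywise derivative of a matrix valued function in the `i`-th coordinate direction. -/
noncomputable def dmat (U : Sp n → Matrix (Fin N) (Fin N) ℂ) (x : Sp n) (i : Fin n) :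
    Matrix (Fin N) (Fin N) ℂ :=
  Matrix.of fun k l => dcoord (fun y => U y k l) x i

/-- `A₂ = U⁻¹ A₁ U + U⁻¹ dU` on `M` for a smooth `U : M → U(N)` with `U = I` on `Γ`. -/
def GaugeEquiv (Ω Γ : Set (Sp n)) (A₁ A₂ : Sp n → Fin n → Matrix (Fin N) (Fin N) ℂ) : Prop :=
  ∃ U : Sp n → Matrix (Fin N) (Fin N) ℂ,
    (∀ k l, ContDiff ℝ ∞ (fun x => U x k l)) ∧
    (∀ x ∈ closure Ω, U x ∈ Matrix.unitaryGroup (Fin N) ℂ) ∧
    (∀ x ∈ Γ, U x = 1) ∧
    ∀ x ∈ closure Ω, ∀ i, A₂ x i = (U x)⁻¹ * A₁ x i * U x + (U x)⁻¹ * dmat U x i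

end Vale.Agent.P088
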