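import Vale.Agent.P088.Basic

namespace Vale.Agent.P088

open MeasureTheory Matrix
open scoped ContDiff

variable {n N : ℕ}


lemma cov_add (A : Sp n → Fin n → Matrix (Fin N) (Fin N) ℂ) {u v : Sp n → Fib N}
    (hu : ContDiff ℝ ∞ u) (hv : ContDiff ℝ ∞ v) (x : Sp n) :
    cov A (u + v) x = cov A u x + cov A v x := by
  funext i
  have h1 : DifferentiableAt ℝ u x := (hu.differentiable (by simp)) x
  have h2 : DifferentiableAt ℝ v x := (hv.differentiable (by simp)) x
  simp only [cov, dcoord, Pi.add_apply, fderiv_add h1 h2, _root_.add_apply,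
    mulVec_add]
  abel

lemma cov_sub (A : Sp n → Fin n → Matrix (Fin N) (Fin N) ℂ) {u v : Sp n → Fib N}
    (hu : ContDiff ℝ ∞ u) (hv : ContDiff ℝ ∞ v) (x : Sp n) :
    cov A (u - v) x = cov A u x - cov A v x := by
  funext i
  have h1 : DifferentiableAt ℝ u x := (hu.differentiable (by simp)) x
  have h2 : DifferentiableAt ℝ v x := (hv.differentiable (by simp)) x
  simp only [cov, dcoord, Pi.sub_apply, fderiv_sub h1 h2, _root_.sub_apply,
    mulVec_sub]
  abel

variable {Ω : Set (Sp n)} {g : Sp n → Matrix (Fin n) (Fin n) ℝ}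
  {A : Sp n → Fin n → Matrix (Fin N) (Fin N) ℂ}

lemma energy_sub_right (hb : Bornology.IsBounded Ω) (hg : IsMetric Ω g) (hA : IsUnitaryConn Ω A)
    {u v w : Sp n → Fib N} (hu : ContDiff ℝ ∞ u) (hv : ContDiff ℝ ∞ v) (hw : ContDiff ℝ ∞ w) :
    energy Ω g A u (v - w) = energy Ω g A u v - energy Ω g A u w := by
  unfold energy
  rw [← integral_sub (integrableOn_dens hb hg hA hu hv) (integrableOn_dens hb hg hA hu hw)]
  refine integral_congr_ae (Filter.Eventually.of_forall fun x => ?_)
  simp only [dens_eq, cov_sub A hv hw, pair_sub_right]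

/-- the energy pairing of a solution only depends on the boundary values of the second slot -/
lemma IsSol.energy_congr (hb : Bornology.IsBounded Ω) (hg : IsMetric Ω g)
    (hA : IsUnitaryConn Ω A) {f u v w : Sp n → Fib N} (hu : IsSol Ω g A f u)
    (hv : ContDiff ℝ ∞ v) (hw : ContDiff ℝ ∞ w) (h : ∀ x ∈ frontier Ω, v x = w x) :
    energy Ω g A u v = energy Ω g A u w := by
  have h1 := hu.weak (v - w) (hv.sub hw) (fun x hx => by simp [h x hx])
  rw [energy_sub_right hb hg hA hu.smooth hv hw] at h1
  exact sub_eq_zero.1 h1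

/-- zero energy forces the covariant derivative to vanish on `M` -/
lemma cov_eq_zero_of_energy (ho : IsOpen Ω) (hb : Bornology.IsBounded Ω) (hg : IsMetric Ω g)
    (hA : IsUnitaryConn Ω A) {u : Sp n → Fib N} (hu : ContDiff ℝ ∞ u)
    (h : energy Ω g A u u = 0) : ∀ x ∈ closure Ω, cov A u x = 0 := by
  have hint := integrableOn_dens hb hg hA hu hu
  have hre : ∫ x in closure Ω, (dens g A u u x).re = 0 := by
    have h0 := integral_re hint
    unfold energy at h
    rw [h] at h0
    simpa using h0
  have hnn : 0 ≤ᵐ[volume.restrict (closure Ω)] fun x => (dens g A u u x).re := by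
    refine (ae_restrict_iff' isClosed_closure.measurableSet).2
      (Filter.Eventually.of_forall fun x hx => ?_)
    simp only [Pi.zero_apply, dens_eq]
    exact re_pair_self_nonneg (cond_posDef (hg.posDef x hx)) _
  have hz := (integral_eq_zero_iff_of_nonneg_ae hnn hint.re).1 hre
  have hcont : ContinuousOn (fun x => (dens g A u u x).re) (closure Ω) :=
    Complex.continuous_re.comp_continuousOn (continuousOn_dens hg hA hu hu)
  have hsub : closure Ω ⊆ closure (interior (closure Ω)) :=
    closure_mono (interior_maximal subset_closure ho)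
  have := Measure.eqOn_of_ae_eq hz hcont continuousOn_const hsub
  intro x hx
  have h2 := this hx
  simp only [Pi.zero_apply, dens_eq] at h2
  exact eq_zero_of_re_pair_self (cond_posDef (hg.posDef x hx)) _ h2


end Vale.Agent.P088
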