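import Vale.Agent.P088.Basic

namespace Vale.Agent.P088

open MeasureTheory Matrix
open scoped ContDiff

variable {n N : ℕ}


lemma clm_eq_zero_of_single {F : Type*} [NormedAddCommGroup F] [NormedSpace ℝ F]
    (L : Sp n →L[ℝ] F) (h : ∀ i, L (EuclideanSpace.single i 1) = 0) : L = 0 := by
  apply ContinuousLinearMap.coe_injective
  refine (EuclideanSpace.basisFun (Fin n) ℝ).toBasis.ext fun i => ?_
  simpa using h i

lemma dcoord_apply {u : Sp n → Fib N} (hu : ContDiff ℝ ∞ u) (x : Sp n) (i : Fin n) (k : Fin N) :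
    dcoord u x i k = dcoord (fun y => u y k) x i := by
  have h1 : DifferentiableAt ℝ u x := (hu.differentiable (by simp)) x
  unfold dcoord
  rw [fderiv_pi (fun k => (differentiableAt_pi.1 h1 k))]
  rfl

lemma contDiff_apply' {u : Sp n → Fib N} (hu : ContDiff ℝ ∞ u) (k : Fin N) :
    ContDiff ℝ ∞ (fun y => u y k) := contDiff_pi.1 hu k

lemma dcoord_mul {a b : Sp n → ℂ} (ha : ContDiff ℝ ∞ a) (hb : ContDiff ℝ ∞ b) (x : Sp n)
    (i : Fin n) : dcoord (fun y => a y * b y) x i = dcoord a x i * b x + a x * dcoord b x i := by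
  have h1 : DifferentiableAt ℝ a x := (ha.differentiable (by simp)) x
  have h2 : DifferentiableAt ℝ b x := (hb.differentiable (by simp)) x
  unfold dcoord
  rw [fderiv_fun_mul h1 h2]
  simp [mul_comm]
  ring

lemma dcoord_star {a : Sp n → ℂ} (x : Sp n) (i : Fin n) :
    dcoord (fun y => star (a y)) x i = star (dcoord a x i) := by
  unfold dcoord
  rw [fderiv_star]
  simp

lemma dcoord_sum {ι : Type*} (s : Finset ι) {a : ι → Sp n → ℂ} (ha : ∀ m, ContDiff ℝ ∞ (a m))
    (x : Sp n) (i : Fin n) :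
    dcoord (fun y => ∑ m ∈ s, a m y) x i = ∑ m ∈ s, dcoord (a m) x i := by
  unfold dcoord
  rw [fderiv_fun_sum (fun m _ => ((ha m).differentiable (by simp)) x)]
  simp

lemma contDiff_star' {a : Sp n → ℂ} (ha : ContDiff ℝ ∞ a) : ContDiff ℝ ∞ (fun y => star (a y)) :=
  Complex.conjCLE.contDiff.comp ha

variable {Ω : Set (Sp n)} {A : Sp n → Fin n → Matrix (Fin N) (Fin N) ℂ}

/-- a parallel section satisfies `∂_i s = - A_i s` -/
lemma dcoord_of_cov_eq_zero {s : Sp n → Fib N} {x : Sp n} (h : cov A s x = 0) (i : Fin n) :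
    dcoord s x i = - (A x i *ᵥ s x) := by
  have := congrFun h i
  simp only [cov, Pi.zero_apply] at this
  exact eq_neg_of_add_eq_zero_left this

lemma gram_dcoord (hA : IsUnitaryConn Ω A)
    {s t : Sp n → Fib N} (hs : ContDiff ℝ ∞ s) (ht : ContDiff ℝ ∞ t) {x : Sp n}
    (hx : x ∈ closure Ω) (hs0 : cov A s x = 0) (ht0 : cov A t x = 0) (i : Fin n) :
    dcoord (fun y => ∑ m, star (s y m) * t y m) x i = 0 := by
  rw [dcoord_sum _ (fun m => (contDiff_star' (contDiff_apply' hs m)).mul (contDiff_apply' ht m))]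
  have h1 : ∀ m, dcoord (fun y => star (s y m) * t y m) x i
      = star (-(A x i *ᵥ s x) m) * t x m + star (s x m) * (-(A x i *ᵥ t x) m) := by
    intro m
    rw [dcoord_mul (contDiff_star' (contDiff_apply' hs m)) (contDiff_apply' ht m), dcoord_star,
      ← dcoord_apply hs, ← dcoord_apply ht, dcoord_of_cov_eq_zero hs0, dcoord_of_cov_eq_zero ht0]
    rfl
  simp only [h1]
  have hsk := hA.skew x hx i
  have h2 : ∑ m, star ((A x i *ᵥ s x) m) * t x m = star (s x) ⬝ᵥ ((A x i)ᴴ *ᵥ t x) := by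
    rw [dotProduct_mulVec, ← star_mulVec]
    rfl
  have h3 : ∑ m, star (s x m) * (A x i *ᵥ t x) m = star (s x) ⬝ᵥ (A x i *ᵥ t x) := rfl
  simp only [star_neg, neg_mul, mul_neg, Finset.sum_add_distrib, Finset.sum_neg_distrib, h2, h3,
    hsk, neg_mulVec, dotProduct_neg]
  ring

lemma gram_const (ho : IsOpen Ω) (hc : IsPreconnected Ω) (hA : IsUnitaryConn Ω A)
    {s t : Sp n → Fib N} (hs : ContDiff ℝ ∞ s) (ht : ContDiff ℝ ∞ t)
    (hs0 : ∀ x ∈ closure Ω, cov A s x = 0) (ht0 : ∀ x ∈ closure Ω, cov A t x = 0)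
    {p x : Sp n} (hp : p ∈ closure Ω) (hx : x ∈ closure Ω) :
    ∑ m, star (s x m) * t x m = ∑ m, star (s p m) * t p m := by
  set h : Sp n → ℂ := fun y => ∑ m, star (s y m) * t y m with hh
  have hsm : ContDiff ℝ ∞ h :=
    ContDiff.sum fun m _ => (contDiff_star' (contDiff_apply' hs m)).mul (contDiff_apply' ht m)
  have hd : Ω.EqOn (fderiv ℝ h) 0 := by
    intro y hy
    exact clm_eq_zero_of_single _ fun i =>
      gram_dcoord hA hs ht (subset_closure hy) (hs0 y (subset_closure hy))
        (ht0 y (subset_closure hy)) i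
  obtain ⟨c, hc'⟩ := ho.exists_is_const_of_fderiv_eq_zero hc
    (hsm.differentiable (by simp)).differentiableOn hd
  have hcl : closure Ω ⊆ {y | h y = c} :=
    closure_minimal (fun y hy => hc' y hy) (isClosed_eq hsm.continuous continuous_const)
  exact (hcl hx).trans (hcl hp).symm



lemma gaugeEquiv_zero_of_frame (ho : IsOpen Ω) (hc : IsPreconnected Ω) (hA : IsUnitaryConn Ω A)
    {Γ : Set (Sp n)} (hΓ : Γ ⊆ closure Ω) (hne : Γ.Nonempty)
    (s : Fin N → Sp n → Fib N) (hs : ∀ l, ContDiff ℝ ∞ (s l))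
    (hs0 : ∀ l, ∀ x ∈ closure Ω, cov A (s l) x = 0)
    (hsΓ : ∀ l, ∀ x ∈ Γ, s l x = Pi.single l 1) : GaugeEquiv Ω Γ 0 A := by
  obtain ⟨p, hp⟩ := hne
  have hunit : ∀ x ∈ closure Ω,
      (Matrix.of fun k l => star (s k x l)) ∈ Matrix.unitaryGroup (Fin N) ℂ := by
    intro x hx
    rw [Matrix.mem_unitaryGroup_iff]
    ext k l
    rw [Matrix.mul_apply]
    have h1 := gram_const ho hc hA (hs k) (hs l) (hs0 k) (hs0 l) (hΓ hp) hx
    simp only [Matrix.star_apply, Matrix.of_apply, star_star]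
    rw [h1, hsΓ k p hp, hsΓ l p hp]
    simp [Matrix.one_apply, Pi.single_apply, eq_comm]
  refine ⟨fun x => Matrix.of fun k l => star (s k x l), ?_, hunit, ?_, ?_⟩
  · intro k l
    exact contDiff_star' (contDiff_apply' (hs k) l)
  · intro x hx
    ext k l
    simp only [Matrix.of_apply, hsΓ k x hx, Matrix.one_apply, Pi.single_apply]
    split_ifs with h1 h2 h2
    · simp
    · exact absurd h1.symm h2
    · exact absurd h2.symm h1
    · simp
  · intro x hx i
    have hd : dmat (fun x => Matrix.of fun k l => star (s k x l)) x i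
        = (Matrix.of fun k l => star (s k x l)) * A x i := by
      ext k l
      simp only [dmat, Matrix.of_apply]
      rw [dcoord_star, ← dcoord_apply (hs k), dcoord_of_cov_eq_zero (hs0 k x hx), Matrix.mul_apply]
      have hsk := hA.skew x hx i
      have h2 : ∀ m, A x i m l = - star (A x i l m) := by
        intro m
        have := congrFun (congrFun hsk m) l
        simp only [Matrix.conjTranspose_apply, Matrix.neg_apply] at this
        rw [this]; simp
      simp only [Pi.neg_apply, mulVec, dotProduct, star_neg, star_sum, star_mul', Matrix.of_apply,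
        h2, mul_neg, Finset.sum_neg_distrib]
      congr 1
      exact Finset.sum_congr rfl fun m _ => mul_comm _ _
    have hdet : IsUnit (Matrix.of fun k l => star (s k x l) : Matrix (Fin N) (Fin N) ℂ).det :=
      Matrix.isUnit_det_of_right_inverse (Matrix.mem_unitaryGroup_iff.1 (hunit x hx))
    simp only [hd, Pi.zero_apply, mul_zero, zero_mul, zero_add]
    rw [Matrix.nonsing_inv_mul_cancel_left _ _ hdet]


end Vale.Agent.P088
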