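import Vale.Agent.P088.WeakMin
namespace Vale.Agent.P088
open MeasureTheory Matrix
open scoped ContDiff
variable {n N : ℕ}

lemma pair_neg_left (P : Matrix (Fin n) (Fin n) ℝ) (X Y : Fin n → Fib N) :
    pair P (-X) Y = - pair P X Y := by
  simp [pair, Finset.sum_neg_distrib]

lemma pair_sub_left (P : Matrix (Fin n) (Fin n) ℝ) (X Y Z : Fin n → Fib N) :
    pair P (X - Y) Z = pair P X Z - pair P Y Z := by
  rw [sub_eq_add_neg, pair_add_left, pair_neg_left, sub_eq_add_neg]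

/-- squared norm of a vector of `ℂ^N` -/
noncomputable def nsq (b : Fib N) : ℝ := ∑ k, Complex.normSq (b k)

/-- `τ_j = Re ⟨Z_j, b⟩` -/
noncomputable def tau (Z : Fin n → Fib N) (b : Fib N) : Fin n → ℝ := fun j => (Z j ⬝ᵥ star b).re

lemma re_pair_smul_right (P : Matrix (Fin n) (Fin n) ℝ) (Z : Fin n → Fib N) (b : Fib N)
    (β : Fin n → ℝ) :
    (pair P Z (fun j => ((β j : ℝ) : ℂ) • b)).re = qf P (tau Z b) β := by
  rw [qf_eq_sum]
  simp only [pair, Complex.re_sum, tau]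
  refine Finset.sum_congr rfl fun i _ => Finset.sum_congr rfl fun j _ => ?_
  have : Z i ⬝ᵥ star (((β j : ℝ) : ℂ) • b) = ((β j : ℝ) : ℂ) * (Z i ⬝ᵥ star b) := by
    rw [star_smul, dotProduct_smul]
    simp
  rw [this, Complex.re_ofReal_mul, Complex.re_ofReal_mul]
  ring

lemma re_dot_comm (a b : Fib N) : (b ⬝ᵥ star a).re = (a ⬝ᵥ star b).re := by
  simp only [dotProduct, Complex.re_sum, Pi.star_apply, Complex.star_def, Complex.mul_re,
    Complex.conj_re, Complex.conj_im]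
  refine Finset.sum_congr rfl fun k _ => ?_
  ring

lemma re_pair_smul_left (P : Matrix (Fin n) (Fin n) ℝ) (Z : Fin n → Fib N) (b : Fib N)
    (β : Fin n → ℝ) :
    (pair P (fun j => ((β j : ℝ) : ℂ) • b) Z).re = qf P β (tau Z b) := by
  rw [qf_eq_sum]
  simp only [pair, Complex.re_sum, tau]
  refine Finset.sum_congr rfl fun i _ => Finset.sum_congr rfl fun j _ => ?_
  have h1 : (((β i : ℝ) : ℂ) • b) ⬝ᵥ star (Z j) = ((β i : ℝ) : ℂ) * (b ⬝ᵥ star (Z j)) := by
    rw [smul_dotProduct]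
    simp
  rw [h1, Complex.re_ofReal_mul, Complex.re_ofReal_mul, re_dot_comm]

lemma dot_star_self (b : Fib N) : b ⬝ᵥ star b = ((nsq b : ℝ) : ℂ) := by
  simp only [dotProduct, Pi.star_apply, nsq, Complex.ofReal_sum]
  refine Finset.sum_congr rfl fun k _ => ?_
  rw [Complex.star_def, Complex.mul_conj]

lemma tau_smul_self (b : Fib N) (β : Fin n → ℝ) :
    tau (fun j => ((β j : ℝ) : ℂ) • b) b = nsq b • β := by
  funext j
  simp only [tau, Pi.smul_apply, smul_eq_mul, smul_dotProduct, dot_star_self]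
  rw [Complex.re_ofReal_mul, Complex.ofReal_re]
  ring

lemma tau_smul (Z : Fin n → Fib N) (b : Fib N) (lam : ℝ) :
    tau (fun j => ((lam : ℝ) : ℂ) • Z j) b = lam • tau Z b := by
  funext j
  simp only [tau, Pi.smul_apply, smul_eq_mul, smul_dotProduct]
  rw [Complex.re_ofReal_mul]

lemma pair_smul_smul (P : Matrix (Fin n) (Fin n) ℝ) (Z : Fin n → Fib N) (lam : ℝ) :
    (pair P (fun j => ((lam : ℝ) : ℂ) • Z j) (fun j => ((lam : ℝ) : ℂ) • Z j)).re
      = lam ^ 2 * (pair P Z Z).re := by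
  simp only [pair, Complex.re_sum, Finset.mul_sum]
  refine Finset.sum_congr rfl fun i _ => Finset.sum_congr rfl fun j _ => ?_
  have : (((lam : ℝ) : ℂ) • Z i) ⬝ᵥ star (((lam : ℝ) : ℂ) • Z j)
      = ((lam ^ 2 : ℝ) : ℂ) * (Z i ⬝ᵥ star (Z j)) := by
    rw [star_smul, dotProduct_smul, smul_dotProduct]
    simp
    ring
  rw [this, Complex.re_ofReal_mul, Complex.re_ofReal_mul, Complex.re_ofReal_mul]
  ring

/-- completing the square -/
lemma ground_identity {P : Matrix (Fin n) (Fin n) ℝ} (hP : P.PosDef) (Z : Fin n → Fib N)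
    (b : Fib N) (c : Fin n → ℝ) (lam : ℝ) :
    (pair P (fun j => ((lam : ℝ) : ℂ) • Z j - ((c j : ℝ) : ℂ) • b)
        (fun j => ((lam : ℝ) : ℂ) • Z j - ((c j : ℝ) : ℂ) • b)).re
      = lam ^ 2 * (pair P Z Z).re - 2 * lam * qf P c (tau Z b) + nsq b * qf P c c := by
  set B : Fin n → Fib N := fun j => ((c j : ℝ) : ℂ) • b with hB
  set Z' : Fin n → Fib N := fun j => ((lam : ℝ) : ℂ) • Z j with hZ'
  have h0 : (fun j => ((lam : ℝ) : ℂ) • Z j - ((c j : ℝ) : ℂ) • b) = Z' - B := by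
    funext j
    simp [hB, hZ']
  rw [h0, pair_sub_left, pair_sub_right, pair_sub_right]
  simp only [Complex.sub_re]
  rw [hB, re_pair_smul_right, re_pair_smul_left, re_pair_smul_left, tau_smul_self, hZ',
    pair_smul_smul, tau_smul]
  rw [qf_comm hP (lam • tau Z b) c]
  simp only [qf_smul_right]
  ring

end Vale.Agent.P088
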