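import Vale.Agent.P088.GroundTest
namespace Vale.Agent.P088
open MeasureTheory Matrix Filter Topology
open scoped ContDiff
variable {n N : ℕ}
variable {Ω : Set (Sp n)} {g : Sp n → Matrix (Fin n) (Fin n) ℝ}
  {A : Sp n → Fin n → Matrix (Fin N) (Fin N) ℂ}

/-- Ground state rigidity: a section `u` with `|u| = w` on the boundary whose `A`-energy equals the
Dirichlet energy of the positive harmonic function `w` satisfies `w d_A u = dw ⊗ u`. -/
theorem ground_core (ho : IsOpen Ω) (hb : Bornology.IsBounded Ω) (hnull : volume (frontier Ω) = 0)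
    (hg : IsMetric Ω g) (hA : IsUnitaryConn Ω A) {u : Sp n → Fib N} (hu : ContDiff ℝ ∞ u)
    {w : Sp n → ℝ} (hw : IsWeakHarm Ω g w) (hpos : ∀ x ∈ Ω, 0 < w x)
    (hbd : ∀ x ∈ frontier Ω, nsq (u x) = w x ^ 2)
    (hE : (energy Ω g A u u).re = sform Ω g w w) :
    ∀ x ∈ closure Ω, ∀ i, ((w x : ℝ) : ℂ) • cov A u x i = ((dcoord w x i : ℝ) : ℂ) • u x := by
  have hK : IsCompact (closure Ω) := hb.isCompact_closure
  have hmeas : MeasurableSet (closure Ω) := isClosed_closure.measurableSet
  have hw0 : ∀ x ∈ closure Ω, 0 ≤ w x := fun x hx =>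
    closure_minimal (fun y hy => (hpos y hy).le)
      (isClosed_le continuous_const hw.smooth.continuous) hx
  set T0 : Sp n → ℝ := fun x => (dens g A u u x).re with hT0
  set T1 : Sp n → ℝ := fun x => qf (cond g x) (rgrad w x) (tau (cov A u x) (u x)) with hT1
  set q : Sp n → ℝ := fun x => qf (cond g x) (rgrad w x) (rgrad w x) with hq
  set ν : Sp n → ℝ := fun x => nsq (u x) with hν
  have cT0 : ContinuousOn T0 (closure Ω) :=
    Complex.continuous_re.comp_continuousOn (continuousOn_dens hg hA hu hu)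
  have cT1 : ContinuousOn T1 (closure Ω) :=
    continuousOn_qf_cond hg (continuous_rgrad hw.smooth).continuousOn
      (continuous_tau hA hu).continuousOn
  have cq : ContinuousOn q (closure Ω) :=
    continuousOn_qf_cond hg (continuous_rgrad hw.smooth).continuousOn
      (continuous_rgrad hw.smooth).continuousOn
  have cν : ContinuousOn ν (closure Ω) := (contDiff_nsq hu).continuous.continuousOn
  have cw : ContinuousOn w (closure Ω) := hw.smooth.continuous.continuousOn
  have hq0 : ∀ x ∈ closure Ω, 0 ≤ q x := fun x hx =>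
    qf_self_nonneg (cond_posDef (hg.posDef x hx)) _
  set H : ℝ → Sp n → ℝ :=
    fun ε x => (ε + w x) ^ 2 * T0 x - 2 * (ε + w x) * T1 x + ν x * q x with hH
  have hHpair : ∀ ε, ∀ x ∈ closure Ω, H ε x = (pair (cond g x)
      (fun j => (((ε + w x : ℝ)) : ℂ) • cov A u x j - ((rgrad w x j : ℝ) : ℂ) • u x)
      (fun j => (((ε + w x : ℝ)) : ℂ) • cov A u x j - ((rgrad w x j : ℝ) : ℂ) • u x)).re := by
    intro ε x hx
    rw [ground_identity (cond_posDef (hg.posDef x hx))]
    simp only [hH, hT0, hT1, hq, hν, dens_eq]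
  have hH0 : ∀ ε, ∀ x ∈ closure Ω, 0 ≤ H ε x := by
    intro ε x hx
    rw [hHpair ε x hx]
    exact re_pair_self_nonneg (cond_posDef (hg.posDef x hx)) _
  set G : ℝ → Sp n → ℝ := fun ε x => (ε * (ε + w x)⁻¹) ^ 2 * q x with hG
  have cinv : ∀ ε, 0 < ε → ContinuousOn (fun x => (ε + w x)⁻¹) (closure Ω) := fun ε hε =>
    (continuousOn_const.add cw).inv₀ (fun x hx => (add_pos_of_pos_of_nonneg hε (hw0 x hx)).ne')
  have cG : ∀ ε, 0 < ε → ContinuousOn (G ε) (closure Ω) := fun ε hε =>
    ((continuousOn_const.mul (cinv ε hε)).pow 2).mul cq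
  have cH : ∀ ε, ContinuousOn (H ε) (closure Ω) := fun ε =>
    ((((continuousOn_const.add cw).pow 2).mul cT0).sub
      ((continuousOn_const.mul (continuousOn_const.add cw)).mul cT1)).add (cν.mul cq)
  have hE0 : ∫ x in closure Ω, T0 x = (energy Ω g A u u).re := by
    have h0 := integral_re (integrableOn_dens hb hg hA hu hu)
    unfold energy
    simpa using h0
  -- the integral identity
  have key : ∀ ε, 0 < ε →
      ∫ x in closure Ω, ((ε + w x)⁻¹) ^ 2 * H ε x = ∫ x in closure Ω, G ε x := by
    intro ε hε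
    have hz := hw.weak (zeta u w ε) (contDiff_zeta hu hw.smooth hε)
      (fun x hx => by simp [zeta, hbd x hx])
    have cz : ContinuousOn (fun x => qf (cond g x) (rgrad w x) (rgrad (zeta u w ε) x))
        (closure Ω) :=
      continuousOn_qf_cond hg (continuous_rgrad hw.smooth).continuousOn
        (continuous_rgrad (contDiff_zeta hu hw.smooth hε)).continuousOn
    have e1 : ∫ x in closure Ω, ((ε + w x)⁻¹) ^ 2 * H ε x = ∫ x in closure Ω,
        (T0 x - q x - qf (cond g x) (rgrad w x) (rgrad (zeta u w ε) x) + G ε x) := by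
      refine setIntegral_congr_fun hmeas fun x hx => ?_
      have hne : ε + w x ≠ 0 := by have := hw0 x hx; positivity
      simp only [hH, hG]
      rw [rgrad_zeta hu hw.smooth hε (hA.skew x hx) (hw0 x hx)]
      exact ground_pointwise _ _ _ _ _ _ _ hne
    have i1 : IntegrableOn (fun x => T0 x - q x
        - qf (cond g x) (rgrad w x) (rgrad (zeta u w ε) x)) (closure Ω) :=
      ((cT0.sub cq).sub cz).integrableOn_compact hK
    have i2 : IntegrableOn (fun x => T0 x - q x) (closure Ω) :=
      (cT0.sub cq).integrableOn_compact hK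
    rw [e1, integral_add i1 ((cG ε hε).integrableOn_compact hK),
      integral_sub i2 (cz.integrableOn_compact hK),
      integral_sub (cT0.integrableOn_compact hK) (cq.integrableOn_compact hK), hE0, hE]
    unfold sform at hz ⊢
    rw [hz]
    simp [hq]
  -- a bound for w
  obtain ⟨M, hM⟩ := hK.exists_bound_of_continuousOn cw
  have hM' : ∀ x ∈ closure Ω, w x ≤ M := fun x hx => (le_abs_self _).trans (hM x hx)
  have ineq : ∀ ε, 0 < ε → ε ≤ 1 →
      ∫ x in closure Ω, H ε x ≤ (M + 1) ^ 2 * ∫ x in closure Ω, G ε x := by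
    intro ε hε hε1
    rw [← key ε hε, ← integral_const_mul]
    refine setIntegral_mono_on ((cH ε).integrableOn_compact hK)
      ((continuousOn_const.mul (((cinv ε hε).pow 2).mul (cH ε))).integrableOn_compact hK) hmeas
      fun x hx => ?_
    have hp : 0 < ε + w x := by have := hw0 x hx; positivity
    have h1 : 1 ≤ (M + 1) * (ε + w x)⁻¹ := by
      rw [← div_eq_mul_inv, one_le_div hp]
      linarith [hM' x hx]
    have h2 : 1 ≤ ((M + 1) * (ε + w x)⁻¹) ^ 2 := one_le_pow₀ h1
    calc H ε x ≤ ((M + 1) * (ε + w x)⁻¹) ^ 2 * H ε x := le_mul_of_one_le_left (hH0 ε x hx) h2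
      _ = (M + 1) ^ 2 * ((ε + w x)⁻¹ ^ 2 * H ε x) := by ring
  -- expansion in ε
  set I1 : ℝ := ∫ x in closure Ω, (2 * w x * T0 x - 2 * T1 x) with hI1
  set I2 : ℝ := ∫ x in closure Ω, T0 x with hI2
  have expand : ∀ ε, ∫ x in closure Ω, H ε x
      = (∫ x in closure Ω, H 0 x) + ε * I1 + ε ^ 2 * I2 := by
    intro ε
    have c1 : ContinuousOn (fun x => 2 * w x * T0 x - 2 * T1 x) (closure Ω) :=
      ((continuousOn_const.mul cw).mul cT0).sub (continuousOn_const.mul cT1)
    have e1 : ∫ x in closure Ω, H ε x = ∫ x in closure Ω,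
        (H 0 x + ε * (2 * w x * T0 x - 2 * T1 x) + ε ^ 2 * T0 x) := by
      refine setIntegral_congr_fun hmeas fun x _ => ?_
      simp only [hH]
      ring
    have i1 : IntegrableOn (fun x => H 0 x + ε * (2 * w x * T0 x - 2 * T1 x)) (closure Ω) :=
      ((cH 0).add (continuousOn_const.mul c1)).integrableOn_compact hK
    have i2 : IntegrableOn (fun x => ε ^ 2 * T0 x) (closure Ω) :=
      (continuousOn_const.mul cT0).integrableOn_compact hK
    have i3 : IntegrableOn (fun x => ε * (2 * w x * T0 x - 2 * T1 x)) (closure Ω) :=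
      (continuousOn_const.mul c1).integrableOn_compact hK
    rw [e1, integral_add i1 i2, integral_add ((cH 0).integrableOn_compact hK) i3,
      integral_const_mul, integral_const_mul]
  -- the limit
  set e : ℕ → ℝ := fun k => 1 / ((k : ℝ) + 1) with he
  have he0 : Tendsto e atTop (𝓝 0) := tendsto_one_div_add_atTop_nhds_zero_nat
  have hepos : ∀ k, 0 < e k := fun k => by simp only [he]; positivity
  have hele : ∀ k, e k ≤ 1 := fun k => by
    simp only [he]
    rw [div_le_one (by positivity)]
    have : (0 : ℝ) ≤ k := Nat.cast_nonneg k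
    linarith
  have limG : Tendsto (fun k => ∫ x in closure Ω, G (e k) x) atTop (𝓝 0) := by
    have := tendsto_integral_of_dominated_convergence (μ := volume.restrict (closure Ω))
      (F := fun k => G (e k)) (f := fun _ => (0 : ℝ)) q
      (fun k => (cG (e k) (hepos k)).aestronglyMeasurable hmeas)
      (cq.integrableOn_compact hK) ?_ ?_
    · simpa using this
    · intro k
      refine (ae_restrict_iff' hmeas).2 (Eventually.of_forall fun x hx => ?_)
      have hp : 0 < e k + w x := by have := hw0 x hx; have := hepos k; positivity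
      have h1 : 0 ≤ e k * (e k + w x)⁻¹ := mul_nonneg (hepos k).le (inv_nonneg.2 hp.le)
      have h2 : e k * (e k + w x)⁻¹ ≤ 1 := by
        rw [← div_eq_mul_inv, div_le_one hp]
        linarith [hw0 x hx]
      have h3 : (e k * (e k + w x)⁻¹) ^ 2 ≤ 1 := pow_le_one₀ h1 h2
      simp only [hG]
      rw [Real.norm_eq_abs, abs_of_nonneg (mul_nonneg (sq_nonneg _) (hq0 x hx))]
      exact mul_le_of_le_one_left (hq0 x hx) h3
    · have hae : ∀ᵐ x ∂(volume : Measure (Sp n)), x ∉ frontier Ω :=
        measure_eq_zero_iff_ae_notMem.1 hnull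
      refine (ae_restrict_iff' hmeas).2 ?_
      filter_upwards [hae] with x hx hxc
      have hxΩ : x ∈ Ω := by
        by_contra hcon
        exact hx (by rw [ho.frontier_eq]; exact ⟨hxc, hcon⟩)
      have h2 : Tendsto (fun k => e k + w x) atTop (𝓝 (0 + w x)) := he0.add_const _
      have h3 := h2.inv₀ (by simpa using (hpos x hxΩ).ne')
      have h4 := ((he0.mul h3).pow 2).mul_const (q x)
      simpa [hG] using h4
  have limH : Tendsto (fun k => (∫ x in closure Ω, H 0 x) + e k * I1 + e k ^ 2 * I2) atTop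
      (𝓝 (∫ x in closure Ω, H 0 x)) := by
    have := (tendsto_const_nhds (x := ∫ x in closure Ω, H 0 x)).add (he0.mul_const I1) |>.add
      ((he0.pow 2).mul_const I2)
    simpa using this
  have hle : ∫ x in closure Ω, H 0 x ≤ 0 := by
    have h5 : Tendsto (fun k => (M + 1) ^ 2 * ∫ x in closure Ω, G (e k) x) atTop (𝓝 0) := by
      simpa using limG.const_mul ((M + 1) ^ 2)
    refine le_of_tendsto_of_tendsto' limH h5 fun k => ?_
    rw [← expand (e k)]
    exact ineq (e k) (hepos k) (hele k)
  have hge : 0 ≤ ∫ x in closure Ω, H 0 x := setIntegral_nonneg hmeas (hH0 0)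
  have hzero := eq_zero_of_setIntegral_eq_zero ho hb (cH 0) (hH0 0) (le_antisymm hle hge)
  intro x hx i
  have h6 := hzero x hx
  rw [hHpair 0 x hx] at h6
  have h7 := congrFun (eq_zero_of_re_pair_self (cond_posDef (hg.posDef x hx)) _ h6) i
  simp only [zero_add, Pi.zero_apply, rgrad] at h7
  exact sub_eq_zero.1 h7

end Vale.Agent.P088
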