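import Vale.Agent.P088.GroundCore
namespace Vale.Agent.P088
open MeasureTheory Matrix Filter Topology
open scoped ContDiff
variable {n N : ℕ}
variable {Ω : Set (Sp n)} {g : Sp n → Matrix (Fin n) (Fin n) ℝ}
  {A : Sp n → Fin n → Matrix (Fin N) (Fin N) ℂ}

lemma nsq_sec (l : Fin N) (φ : Sp n → ℝ) (x : Sp n) : nsq (sec l φ x) = φ x ^ 2 := by
  unfold nsq sec
  rw [Finset.sum_eq_single l]
  · simp [Complex.normSq_ofReal, sq]
  · intro k _ hk
    simp [hk]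
  · simp

lemma isDatum_sec {Γ : Set (Sp n)} (l : Fin N) {φ : Sp n → ℝ} (hφ : ContDiff ℝ ∞ φ)
    (hsupp : closure {x | x ∈ frontier Ω ∧ φ x ≠ 0} ⊆ Γ) : IsDatum Ω Γ (sec l φ) where
  smooth := contDiff_sec l hφ
  supp := by
    refine (closure_mono ?_).trans hsupp
    rintro x ⟨hx, hne⟩
    refine ⟨hx, fun h0 => hne ?_⟩
    simp [sec, h0]

/-- what the equality of the data gives for the boundary value `φ e_l`, `φ ≥ 0` -/
lemma exists_ground (ho : IsOpen Ω) (hb : Bornology.IsBounded Ω) (hc : IsPreconnected Ω)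
    (hnull : volume (frontier Ω) = 0) (hg : IsMetric Ω g) (hA : IsUnitaryConn Ω A)
    {Γ : Set (Sp n)} (hsame : SameData Ω Γ g 0 g A) {φ : Sp n → ℝ} (hφ : ContDiff ℝ ∞ φ)
    (hφ0 : ∀ x ∈ frontier Ω, 0 ≤ φ x) (hsupp : closure {x | x ∈ frontier Ω ∧ φ x ≠ 0} ⊆ Γ)
    {p : Sp n} (hp : p ∈ frontier Ω) (hpp : 0 < φ p) (l : Fin N) :
    ∃ (w : Sp n → ℝ) (u : Sp n → Fib N), ContDiff ℝ ∞ w ∧ ContDiff ℝ ∞ u ∧
      (∀ x ∈ frontier Ω, w x = φ x) ∧ (∀ x ∈ frontier Ω, u x = sec l φ x) ∧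
      (∀ x ∈ Ω, 0 < w x) ∧
      ∀ x ∈ closure Ω, ∀ i, ((w x : ℝ) : ℂ) • cov A u x i = ((dcoord w x i : ℝ) : ℂ) • u x := by
  have hd := isDatum_sec (Ω := Ω) l hφ hsupp
  obtain ⟨u₁, v₁, u₂, v₂, hu₁, hv₁, hu₂, hv₂, he⟩ := hsame _ _ hd hd
  set w : Sp n → ℝ := fun y => (u₁ y l).re with hwdef
  have hw : IsWeakHarm Ω g w := hu₁.isWeakHarm hb hg l
  have hwb : ∀ x ∈ frontier Ω, w x = φ x := by
    intro x hx
    simp [hwdef, hu₁.bdry x hx, sec]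
  have hw0 : ∀ x ∈ closure Ω, 0 ≤ w x :=
    hw.nonneg ho hb hc ⟨p, hp⟩ hg (fun x hx => by rw [hwb x hx]; exact hφ0 x hx)
  have hex : ∃ x ∈ Ω, 0 < w x := by
    have hopen : IsOpen {x | 0 < w x} := isOpen_lt continuous_const hw.smooth.continuous
    have hpm : p ∈ {x | 0 < w x} := by
      simp only [Set.mem_ofPred_eq, hwb p hp]
      exact hpp
    obtain ⟨x, hx1, hx2⟩ := mem_closure_iff.1 (frontier_subset_closure hp) _ hopen hpm
    exact ⟨x, hx2, hx1⟩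
  have hpos := hw.pos ho hc hg hw0 hex
  have h1 : energy Ω g 0 u₁ v₁ = energy Ω g 0 u₁ (sec l w) :=
    hu₁.energy_congr hb hg (isUnitaryConn_zero Ω) hv₁.smooth (contDiff_sec l hw.smooth)
      (fun x hx => by rw [hv₁.bdry x hx]; simp [sec, hwb x hx])
  have h2 : energy Ω g A u₂ u₂ = energy Ω g A u₂ v₂ :=
    hu₂.energy_congr hb hg hA hu₂.smooth hv₂.smooth
      (fun x hx => (hu₂.bdry x hx).trans (hv₂.bdry x hx).symm)
  have hE : (energy Ω g A u₂ u₂).re = sform Ω g w w := by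
    rw [h2, ← he, h1, re_energy_zero_sec hb hg hu₁.smooth l hw.smooth]
  refine ⟨w, u₂, hw.smooth, hu₂.smooth, hwb, hu₂.bdry, hpos, ?_⟩
  exact ground_core ho hb hnull hg hA hu₂.smooth hw hpos
    (fun x hx => by rw [hu₂.bdry x hx, nsq_sec, hwb x hx]) hE

lemma cov_inv_smul {w : Sp n → ℝ} {u : Sp n → Fib N} {x : Sp n} (hw : DifferentiableAt ℝ w x)
    (hu : DifferentiableAt ℝ u x) (hwx : w x ≠ 0)
    (h : ∀ i, ((w x : ℝ) : ℂ) • cov A u x i = ((dcoord w x i : ℝ) : ℂ) • u x) :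
    cov A (fun y => (w y)⁻¹ • u y) x = 0 := by
  funext i
  have hr : HasFDerivAt (fun y => (w y)⁻¹) ((-(w x ^ 2)⁻¹) • fderiv ℝ w x) x :=
    (hasDerivAt_inv hwx).comp_hasFDerivAt x hw.hasFDerivAt
  have hs : fderiv ℝ (fun y => (w y)⁻¹ • u y) x = (w x)⁻¹ • fderiv ℝ u x
      + (-(w x ^ 2)⁻¹ • fderiv ℝ w x).smulRight (u x) := (hr.smul hu.hasFDerivAt).fderiv
  funext k
  have hk := congrFun (h i) k
  simp only [cov, dcoord] at hk ⊢
  rw [hs]
  simp only [Pi.add_apply, Pi.smul_apply, Pi.zero_apply, _root_.add_apply, _root_.smul_apply,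
    ContinuousLinearMap.smulRight_apply, mulVec_smul, smul_eq_mul, Complex.real_smul] at hk ⊢
  have hc : ((w x : ℝ) : ℂ) ≠ 0 := by exact_mod_cast hwx
  push_cast
  field_simp
  linear_combination hk

end Vale.Agent.P088
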