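import Vale.Agent.P088.GroundAlg
namespace Vale.Agent.P088
open MeasureTheory Matrix
open scoped ContDiff
variable {n N : ℕ}

lemma nsq_eq_re (b : Fib N) : nsq b = (∑ m, star (b m) * b m).re := by
  simp only [nsq, Complex.re_sum]
  refine Finset.sum_congr rfl fun k _ => ?_
  rw [Complex.star_def, mul_comm, Complex.mul_conj, Complex.ofReal_re]

lemma contDiff_nsq {u : Sp n → Fib N} (hu : ContDiff ℝ ∞ u) :
    ContDiff ℝ ∞ (fun y => nsq (u y)) := by
  simp only [nsq_eq_re]
  exact contDiff_re (ContDiff.sum fun m _ =>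
    (contDiff_star' (contDiff_apply' hu m)).mul (contDiff_apply' hu m))

lemma dcoord_nsq {A : Sp n → Fin n → Matrix (Fin N) (Fin N) ℂ} {u : Sp n → Fib N}
    (hu : ContDiff ℝ ∞ u) {x : Sp n} (hsk : ∀ i, (A x i)ᴴ = - A x i) (i : Fin n) :
    dcoord (fun y => nsq (u y)) x i = 2 * tau (cov A u x) (u x) i := by
  simp only [nsq_eq_re]
  rw [dcoord_re (ContDiff.sum fun m _ =>
    (contDiff_star' (contDiff_apply' hu m)).mul (contDiff_apply' hu m)),
    dcoord_sum _ (fun m => (contDiff_star' (contDiff_apply' hu m)).mul (contDiff_apply' hu m))]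
  have h1 : ∀ m, dcoord (fun y => star (u y m) * u y m) x i
      = star (dcoord u x i m) * u x m + star (u x m) * dcoord u x i m := by
    intro m
    rw [dcoord_mul (contDiff_star' (contDiff_apply' hu m)) (contDiff_apply' hu m), dcoord_star,
      ← dcoord_apply hu]
  simp only [h1]
  have h2 : ∑ m, star ((A x i *ᵥ u x) m) * u x m = star (u x) ⬝ᵥ ((A x i)ᴴ *ᵥ u x) := by
    rw [dotProduct_mulVec, ← star_mulVec]
    rfl
  have h3 : ∑ m, star (u x m) * (A x i *ᵥ u x) m = star (u x) ⬝ᵥ (A x i *ᵥ u x) := rfl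
  have h4 : ∑ m, (star ((A x i *ᵥ u x) m) * u x m + star (u x m) * (A x i *ᵥ u x) m) = 0 := by
    rw [Finset.sum_add_distrib, h2, h3, hsk i, neg_mulVec, dotProduct_neg]
    ring
  have h5 : ∑ m, (star (dcoord u x i m) * u x m + star (u x m) * dcoord u x i m)
      = ∑ m, (star (cov A u x i m) * u x m + star (u x m) * cov A u x i m) := by
    rw [← add_zero (∑ m, (star (dcoord u x i m) * u x m + star (u x m) * dcoord u x i m)), ← h4,
      ← Finset.sum_add_distrib]
    refine Finset.sum_congr rfl fun m _ => ?_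
    simp only [cov, Pi.add_apply, star_add]
    ring
  rw [h5]
  simp only [tau, dotProduct, Complex.re_sum, Finset.mul_sum, Pi.star_apply]
  refine Finset.sum_congr rfl fun m _ => ?_
  simp only [Complex.star_def, Complex.add_re, Complex.mul_re, Complex.conj_re, Complex.conj_im]
  ring

/-- a positive smooth function that equals `ε + t` for `t ≥ -ε/4` -/
noncomputable def dreg (ε t : ℝ) : ℝ := ε + t * Real.smoothTransition (4 * t / ε + 2)

lemma dreg_eq {ε t : ℝ} (hε : 0 < ε) (ht : -ε / 4 ≤ t) : dreg ε t = ε + t := by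
  unfold dreg
  rw [Real.smoothTransition.one_of_one_le, mul_one]
  have : -1 ≤ 4 * t / ε := by
    rw [le_div_iff₀ hε]
    linarith
  linarith

lemma dreg_pos {ε : ℝ} (hε : 0 < ε) (t : ℝ) : 0 < dreg ε t := by
  unfold dreg
  by_cases h1 : 0 ≤ t
  · have := mul_nonneg h1 (Real.smoothTransition.nonneg (4 * t / ε + 2))
    linarith
  · push Not at h1
    by_cases h2 : t ≤ -ε / 2
    · rw [Real.smoothTransition.zero_of_nonpos]
      · linarith
      · have : 4 * t / ε ≤ -2 := by
          rw [div_le_iff₀ hε]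
          linarith
        linarith
    · push Not at h2
      have h3 := Real.smoothTransition.le_one (4 * t / ε + 2)
      have h4 := Real.smoothTransition.nonneg (4 * t / ε + 2)
      nlinarith

lemma contDiff_dreg (ε : ℝ) : ContDiff ℝ ∞ (dreg ε) := by
  unfold dreg
  exact contDiff_const.add (contDiff_id.mul (Real.smoothTransition.contDiff.comp
    (((contDiff_const.mul contDiff_id).div_const ε).add contDiff_const)))

/-- a smooth function on `ℝ` that equals `1/(t+ε)` for `t ≥ -ε/4` -/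
noncomputable def Kreg (ε t : ℝ) : ℝ := (dreg ε t)⁻¹

lemma contDiff_Kreg {ε : ℝ} (hε : 0 < ε) : ContDiff ℝ ∞ (Kreg ε) :=
  (contDiff_dreg ε).inv fun t => (dreg_pos hε t).ne'

lemma Kreg_eq {ε t : ℝ} (hε : 0 < ε) (ht : 0 ≤ t) : Kreg ε t = (ε + t)⁻¹ := by
  unfold Kreg
  rw [dreg_eq hε (by linarith)]

lemma deriv_Kreg {ε t : ℝ} (hε : 0 < ε) (ht : 0 ≤ t) : deriv (Kreg ε) t = -((ε + t)⁻¹) ^ 2 := by
  have h1 : Kreg ε =ᶠ[nhds t] fun s => (ε + s)⁻¹ := by
    have : Set.Ioi (-ε / 4) ∈ nhds t := Ioi_mem_nhds (by linarith)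
    filter_upwards [this] with s hs
    unfold Kreg
    rw [dreg_eq hε (le_of_lt hs)]
  rw [h1.deriv_eq]
  have h2 : HasDerivAt (fun s : ℝ => ε + s) 1 t := by
    simpa using (hasDerivAt_id t).const_add ε
  have h3 := (h2.inv (by positivity : ε + t ≠ 0)).deriv
  have h4 : (fun s : ℝ => (ε + s)⁻¹) = (fun s : ℝ => ε + s)⁻¹ := rfl
  rw [h4, h3]
  field_simp

end Vale.Agent.P088
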