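import Vale.Agent.P088.Comparison

namespace Vale.Agent.P088

open MeasureTheory Matrix
open scoped ContDiff

variable {n N : ℕ}
variable {Ω : Set (Sp n)} {g : Sp n → Matrix (Fin n) (Fin n) ℝ}


lemma pos_on_ball (ho : IsOpen Ω) (hg : IsMetric Ω g)
    {w : Sp n → ℝ} (hw : IsWeakHarm Ω g w) (hw0 : ∀ x ∈ closure Ω, 0 ≤ w x) {y0 : Sp n}
    {r R R₂ m : ℝ} (hr : 0 < r) (hrR : r < R) (hRR₂ : R < R₂)
    (hball : Metric.closedBall y0 R₂ ⊆ Ω) (hm : 0 < m)
    (hin : ∀ z ∈ Metric.closedBall y0 r, m ≤ w z) : ∀ z ∈ Metric.ball y0 R, 0 < w z := by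
  have hR : 0 < R := hr.trans hrR
  set K : Set (Sp n) := Metric.closedBall y0 R₂ ∩ {z | r ≤ ‖z - y0‖} with hK
  have hKc : IsCompact K := (isCompact_closedBall y0 R₂).inter_right
    (isClosed_le continuous_const (continuous_id.sub continuous_const).norm)
  have hy : y0 ∉ K := by
    intro h
    have := h.2
    simp only [Set.mem_ofPred_eq, sub_self, norm_zero] at this
    linarith
  obtain ⟨α, hα, hL⟩ := exists_alpha ho hg y0 hKc (Set.inter_subset_left.trans hball) hy
  intro z hz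
  have hzΩ : z ∈ closure Ω :=
    subset_closure (hball (Metric.ball_subset_closedBall (Metric.ball_subset_ball hRR₂.le hz)))
  have h1 : ∀ δ : ℝ, 0 < δ → m * bar y0 α R z ≤ w z + δ := by
    intro δ hδ
    have := comparison_aux ho hg hw hw0 hr hrR hRR₂ hball hm hin hα
      (fun z hz hzr => hL R z ⟨hz, hzr⟩) hδ z hzΩ
    linarith
  have h2 : m * bar y0 α R z ≤ w z := le_of_forall_pos_le_add h1
  have h3 := bar_pos hα hR hz
  have : 0 < m * bar y0 α R z := mul_pos hm h3
  linarith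

/-- strong minimum principle -/
theorem IsWeakHarm.pos (ho : IsOpen Ω) (hc : IsPreconnected Ω) (hg : IsMetric Ω g)
    {w : Sp n → ℝ} (hw : IsWeakHarm Ω g w) (hw0 : ∀ x ∈ closure Ω, 0 ≤ w x)
    (hex : ∃ x ∈ Ω, 0 < w x) : ∀ x ∈ Ω, 0 < w x := by
  have hcont : Continuous w := hw.smooth.continuous
  set P : Set (Sp n) := {x | 0 < w x} with hP
  set Z : Set (Sp n) := {x | x ∈ Ω ∧ w x = 0} with hZ
  have hPo : IsOpen P := isOpen_lt continuous_const hcont
  have hZo : IsOpen Z := by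
    rw [Metric.isOpen_iff]
    intro x hx
    obtain ⟨ε, hε, hεΩ⟩ := Metric.isOpen_iff.1 ho x hx.1
    set ρ : ℝ := ε / 5 with hρ
    have hρ0 : 0 < ρ := by positivity
    have hcb : Metric.closedBall x (4 * ρ) ⊆ Ω :=
      (Metric.closedBall_subset_ball (by rw [hρ]; linarith)).trans hεΩ
    refine ⟨ρ, hρ0, fun y hy => ?_⟩
    have hyΩ : y ∈ Ω := hcb (Metric.ball_subset_closedBall (Metric.ball_subset_ball (by linarith) hy))
    refine ⟨hyΩ, ?_⟩
    by_contra hne
    have hwy : 0 < w y := lt_of_le_of_ne (hw0 y (subset_closure hyΩ)) (Ne.symm hne)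
    -- a small closed ball around y on which w ≥ w y / 2
    have hnh : ∀ᶠ z in nhds y, w y / 2 < w z :=
      hcont.continuousAt.eventually (lt_mem_nhds (by linarith))
    obtain ⟨r₀, hr₀, hr₀'⟩ := Metric.eventually_nhds_iff_ball.1 hnh
    set r : ℝ := min (r₀ / 2) ρ with hr
    have hr0 : 0 < r := lt_min (by positivity) hρ0
    have hin : ∀ z ∈ Metric.closedBall y r, w y / 2 ≤ w z := by
      intro z hz
      refine (hr₀' z ?_).le
      refine Metric.closedBall_subset_ball ?_ hz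
      have : r ≤ r₀ / 2 := min_le_left _ _
      linarith
    have hb3 : Metric.closedBall y (3 * ρ) ⊆ Ω := by
      refine Set.Subset.trans ?_ hcb
      intro z hz
      rw [Metric.mem_closedBall] at hz ⊢
      have h1 : dist y x < ρ := hy
      have := dist_triangle z y x
      linarith
    have := pos_on_ball ho hg hw hw0 (r := r) (R := 2 * ρ) (R₂ := 3 * ρ) hr0
      (by have : r ≤ ρ := min_le_right _ _
          linarith) (by linarith) hb3 (by positivity : 0 < w y / 2) hin x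
      (by rw [Metric.mem_ball, dist_comm]
          have h1 : dist y x < ρ := hy
          linarith)
    rw [hx.2] at this
    exact lt_irrefl _ this
  by_contra hcon
  push Not at hcon
  obtain ⟨x, hxΩ, hx⟩ := hcon
  have hxZ : x ∈ Z := ⟨hxΩ, le_antisymm hx (hw0 x (subset_closure hxΩ))⟩
  obtain ⟨y, hyΩ, hy⟩ := hex
  have hcover : Ω ⊆ P ∪ Z := by
    intro z hz
    rcases (hw0 z (subset_closure hz)).lt_or_eq with h | h
    · exact Or.inl h
    · exact Or.inr ⟨hz, h.symm⟩
  obtain ⟨z, -, hzP, hzZ⟩ := hc P Z hPo hZo hcover ⟨y, hyΩ, hy⟩ ⟨x, hxΩ, hxZ⟩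
  have h1 : 0 < w z := hzP
  rw [hzZ.2] at h1
  exact lt_irrefl _ h1


end Vale.Agent.P088
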