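import Vale.Agent.P088.GroundReg
import Vale.Agent.P088.StrongMin
namespace Vale.Agent.P088
open MeasureTheory Matrix Filter Topology
open scoped ContDiff
variable {n N : ℕ}
variable {Ω : Set (Sp n)} {g : Sp n → Matrix (Fin n) (Fin n) ℝ}
  {A : Sp n → Fin n → Matrix (Fin N) (Fin N) ℂ}

/-- the test function `(|u|² - w²)/(w + ε)` -/
noncomputable def zeta (u : Sp n → Fib N) (w : Sp n → ℝ) (ε : ℝ) (y : Sp n) : ℝ :=
  (nsq (u y) - w y ^ 2) * Kreg ε (w y)

lemma contDiff_zeta {u : Sp n → Fib N} (hu : ContDiff ℝ ∞ u) {w : Sp n → ℝ}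
    (hw : ContDiff ℝ ∞ w) {ε : ℝ} (hε : 0 < ε) : ContDiff ℝ ∞ (zeta u w ε) :=
  ((contDiff_nsq hu).sub (hw.pow 2)).mul ((contDiff_Kreg hε).comp hw)

lemma dcoord_sub_at {a b : Sp n → ℝ} {x : Sp n} (ha : DifferentiableAt ℝ a x)
    (hb : DifferentiableAt ℝ b x) (i : Fin n) :
    dcoord (fun y => a y - b y) x i = dcoord a x i - dcoord b x i := by
  unfold dcoord
  rw [fderiv_fun_sub ha hb]
  simp

lemma qf_sub_right (P : Matrix (Fin n) (Fin n) ℝ) (X Y Z : Fin n → ℝ) :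
    qf P X (Y - Z) = qf P X Y - qf P X Z := by
  simp [qf, mulVec_sub, dotProduct_sub]

lemma rgrad_zeta {u : Sp n → Fib N} (hu : ContDiff ℝ ∞ u) {w : Sp n → ℝ}
    (hw : ContDiff ℝ ∞ w) {ε : ℝ} (hε : 0 < ε) {x : Sp n} (hsk : ∀ i, (A x i)ᴴ = - A x i)
    (hx : 0 ≤ w x) :
    rgrad (zeta u w ε) x = ((ε + w x)⁻¹) • ((2 : ℝ) • tau (cov A u x) (u x)
        - (2 * w x) • rgrad w x) - (((ε + w x)⁻¹) ^ 2 * (nsq (u x) - w x ^ 2)) • rgrad w x := by
  funext i
  have hwd : DifferentiableAt ℝ w x := (hw.differentiable (by simp)) x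
  have hnd : DifferentiableAt ℝ (fun y => nsq (u y)) x :=
    ((contDiff_nsq hu).differentiable (by simp)) x
  have hw2 : DifferentiableAt ℝ (fun y => w y ^ 2) x := ((hw.pow 2).differentiable (by simp)) x
  have hK : DifferentiableAt ℝ (fun y => Kreg ε (w y)) x :=
    (((contDiff_Kreg hε).comp hw).differentiable (by simp)) x
  have h1 : dcoord (fun y => w y ^ 2) x i = 2 * w x * dcoord w x i := by
    have : (fun y => w y ^ 2) = fun y => w y * w y := by
      funext y; ring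
    rw [this, dcoord_mul_at hwd hwd]
    ring
  have hz : zeta u w ε = fun y => (fun y => nsq (u y) - w y ^ 2) y * (fun y => Kreg ε (w y)) y := rfl
  simp only [rgrad, Pi.sub_apply, Pi.smul_apply, smul_eq_mul]
  rw [hz, dcoord_mul_at (hnd.fun_sub hw2) hK, dcoord_sub_at hnd hw2, dcoord_nsq hu hsk, h1,
    dcoord_comp_real (contDiff_Kreg hε) hw, deriv_Kreg hε hx, Kreg_eq hε hx]
  ring

lemma continuous_tau (hA : IsUnitaryConn Ω A) {u : Sp n → Fib N} (hu : ContDiff ℝ ∞ u) :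
    Continuous fun x => tau (cov A u x) (u x) :=
  continuous_pi fun j => Complex.continuous_re.comp
    ((continuous_cov hA hu j).dotProduct (continuous_star.comp hu.continuous))

/-- pointwise form of the ground state identity -/
lemma ground_pointwise (P : Matrix (Fin n) (Fin n) ℝ) (c τ : Fin n → ℝ) (t0 ν om ε : ℝ)
    (h : ε + om ≠ 0) :
    ((ε + om)⁻¹) ^ 2 * ((ε + om) ^ 2 * t0 - 2 * (ε + om) * qf P c τ + ν * qf P c c)
      = t0 - qf P c c - qf P c (((ε + om)⁻¹) • ((2 : ℝ) • τ - (2 * om) • c)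
          - (((ε + om)⁻¹) ^ 2 * (ν - om ^ 2)) • c) + (ε * (ε + om)⁻¹) ^ 2 * qf P c c := by
  simp only [qf_sub_right, qf_smul_right]
  field_simp
  ring

end Vale.Agent.P088
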