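import Vale.Agent.P088.GroundData
namespace Vale.Agent.P088
open MeasureTheory Matrix Filter Topology
open scoped ContDiff
variable {n N : ℕ}
variable {Ω : Set (Sp n)} {g : Sp n → Matrix (Fin n) (Fin n) ℝ}
  {A : Sp n → Fin n → Matrix (Fin N) (Fin N) ℂ}

/-- a frame of sections, parallel in `Ω`, smooth in `Ω` and near the boundary points where
`φ > 0`, and equal to the standard frame at these boundary points -/
structure IsParFrame (Ω : Set (Sp n)) (A : Sp n → Fin n → Matrix (Fin N) (Fin N) ℂ)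
    (φ : Sp n → ℝ) (s : Fin N → Sp n → Fib N) : Prop where
  smoothI : ∀ l, ∀ x ∈ Ω, ContDiffAt ℝ ∞ (s l) x
  par : ∀ l, ∀ x ∈ Ω, cov A (s l) x = 0
  smoothB : ∀ l, ∀ x ∈ frontier Ω, 0 < φ x → ContDiffAt ℝ ∞ (s l) x
  bdry : ∀ l, ∀ x ∈ frontier Ω, 0 < φ x → s l x = Pi.single l 1

lemma exists_parFrame (ho : IsOpen Ω) (hb : Bornology.IsBounded Ω) (hc : IsPreconnected Ω)
    (hnull : volume (frontier Ω) = 0) (hg : IsMetric Ω g) (hA : IsUnitaryConn Ω A)
    {Γ : Set (Sp n)} (hsame : SameData Ω Γ g 0 g A) {φ : Sp n → ℝ} (hφ : ContDiff ℝ ∞ φ)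
    (hφ0 : ∀ x ∈ frontier Ω, 0 ≤ φ x) (hsupp : closure {x | x ∈ frontier Ω ∧ φ x ≠ 0} ⊆ Γ)
    {p : Sp n} (hp : p ∈ frontier Ω) (hpp : 0 < φ p) :
    ∃ s : Fin N → Sp n → Fib N, IsParFrame Ω A φ s := by
  choose w u hw hu hwb hub hpos hcov using
    fun l : Fin N => exists_ground ho hb hc hnull hg hA hsame hφ hφ0 hsupp hp hpp l
  have hsm : ∀ l x, w l x ≠ 0 → ContDiffAt ℝ ∞ (fun y => (w l y)⁻¹ • u l y) x := fun l x hx =>
    ((hw l).contDiffAt.inv hx).smul (hu l).contDiffAt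
  refine ⟨fun l y => (w l y)⁻¹ • u l y, ⟨?_, ?_, ?_, ?_⟩⟩
  · exact fun l x hx => hsm l x (hpos l x hx).ne'
  · exact fun l x hx => cov_inv_smul (((hw l).differentiable (by simp)) x)
      (((hu l).differentiable (by simp)) x) (hpos l x hx).ne' (hcov l x (subset_closure hx))
  · exact fun l x hx h0 => hsm l x (by rw [hwb l x hx]; exact h0.ne')
  · intro l x hx h0
    funext k
    simp only [hwb l x hx, hub l x hx, sec, Pi.smul_apply, Complex.real_smul]
    by_cases hk : k = l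
    · subst hk
      have : ((φ x : ℝ) : ℂ) ≠ 0 := by exact_mod_cast h0.ne'
      simp [this]
    · simp [hk]

lemma dcoord_apply_at {u : Sp n → Fib N} {x : Sp n} (h1 : DifferentiableAt ℝ u x) (i : Fin n)
    (k : Fin N) : dcoord u x i k = dcoord (fun y => u y k) x i := by
  unfold dcoord
  rw [fderiv_pi (fun k => (differentiableAt_pi.1 h1 k))]
  rfl

lemma gram_fderiv_at {s t : Sp n → Fib N} {x : Sp n} (hsk : ∀ i, (A x i)ᴴ = - A x i)
    (hs : DifferentiableAt ℝ s x) (ht : DifferentiableAt ℝ t x)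
    (hs0 : cov A s x = 0) (ht0 : cov A t x = 0) :
    fderiv ℝ (fun y => ∑ m, star (s y m) * t y m) x = 0 := by
  refine clm_eq_zero_of_single _ fun i => ?_
  have hsm : ∀ m, DifferentiableAt ℝ (fun y => s y m) x := differentiableAt_pi.1 hs
  have htm : ∀ m, DifferentiableAt ℝ (fun y => t y m) x := differentiableAt_pi.1 ht
  have hstar : ∀ m, DifferentiableAt ℝ (fun y => star (s y m)) x := fun m => (hsm m).star
  rw [fderiv_fun_sum (fun m _ => (hstar m).fun_mul (htm m))]
  have h1 : ∀ m, fderiv ℝ (fun y => star (s y m) * t y m) x (EuclideanSpace.single i 1)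
      = star (-(A x i *ᵥ s x) m) * t x m + star (s x m) * (-(A x i *ᵥ t x) m) := by
    intro m
    have e1 : dcoord (fun y => star (s y m)) x i = star (-(A x i *ᵥ s x) m) := by
      rw [dcoord_star, ← dcoord_apply_at hs, dcoord_of_cov_eq_zero hs0]
      rfl
    have e2 : dcoord (fun y => t y m) x i = (-(A x i *ᵥ t x) m) := by
      rw [← dcoord_apply_at ht, dcoord_of_cov_eq_zero ht0]
      rfl
    unfold dcoord at e1 e2
    rw [fderiv_fun_mul (hstar m) (htm m)]
    simp only [_root_.add_apply, _root_.smul_apply, e1, e2, smul_eq_mul]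
    ring
  simp only [_root_.sum_apply, h1]
  have h2 : ∑ m, star ((A x i *ᵥ s x) m) * t x m = star (s x) ⬝ᵥ ((A x i)ᴴ *ᵥ t x) := by
    rw [dotProduct_mulVec, ← star_mulVec]
    rfl
  have h3 : ∑ m, star (s x m) * (A x i *ᵥ t x) m = star (s x) ⬝ᵥ (A x i *ᵥ t x) := rfl
  simp only [star_neg, neg_mul, mul_neg, Finset.sum_add_distrib, Finset.sum_neg_distrib, h2, h3,
    hsk i, neg_mulVec, dotProduct_neg]
  ring

lemma eq_of_continuousAt_of_mem_closure {f : Sp n → ℂ} {c : ℂ} {p : Sp n}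
    (hf : ContinuousAt f p) (hp : p ∈ closure Ω) (h : ∀ x ∈ Ω, f x = c) : f p = c := by
  have hne : (𝓝[Ω] p).NeBot := mem_closure_iff_nhdsWithin_neBot.1 hp
  have h1 : Tendsto f (𝓝[Ω] p) (𝓝 (f p)) := hf.tendsto.mono_left nhdsWithin_le_nhds
  have h2 : Tendsto f (𝓝[Ω] p) (𝓝 c) :=
    tendsto_const_nhds.congr' (by
      filter_upwards [self_mem_nhdsWithin] with x hx
      exact (h x hx).symm)
  exact tendsto_nhds_unique h1 h2

/-- Gram matrix of two parallel frames normalised at a common boundary point -/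
lemma IsParFrame.gram (ho : IsOpen Ω) (hc : IsPreconnected Ω) (hA : IsUnitaryConn Ω A)
    {φ ψ : Sp n → ℝ} {s t : Fin N → Sp n → Fib N} (hs : IsParFrame Ω A φ s)
    (ht : IsParFrame Ω A ψ t) {p : Sp n} (hp : p ∈ frontier Ω) (hφp : 0 < φ p) (hψp : 0 < ψ p)
    (k l : Fin N) : ∀ x ∈ Ω, ∑ m, star (s k x m) * t l x m = if k = l then 1 else 0 := by
  set h : Sp n → ℂ := fun y => ∑ m, star (s k y m) * t l y m with hh
  have hdiff : ∀ (r : Sp n → Fib N) (x : Sp n), ContDiffAt ℝ ∞ r x → DifferentiableAt ℝ r x :=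
    fun r x hr => hr.differentiableAt (by simp)
  have hd1 : ∀ x, DifferentiableAt ℝ (s k) x → DifferentiableAt ℝ (t l) x →
      DifferentiableAt ℝ h x := by
    intro x h1 h2
    exact DifferentiableAt.fun_sum fun m _ =>
      ((differentiableAt_pi.1 h1 m).star).fun_mul (differentiableAt_pi.1 h2 m)
  have hdo : DifferentiableOn ℝ h Ω := fun x hx =>
    (hd1 x (hdiff _ _ (hs.smoothI k x hx)) (hdiff _ _ (ht.smoothI l x hx))).differentiableWithinAt
  have hd : Ω.EqOn (fderiv ℝ h) 0 := fun x hx =>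
    gram_fderiv_at (hA.skew x (subset_closure hx)) (hdiff _ _ (hs.smoothI k x hx))
      (hdiff _ _ (ht.smoothI l x hx)) (hs.par k x hx) (ht.par l x hx)
  obtain ⟨c, hc'⟩ := ho.exists_is_const_of_fderiv_eq_zero hc hdo hd
  have hcp : h p = c := eq_of_continuousAt_of_mem_closure
    (hd1 p (hdiff _ _ (hs.smoothB k p hp hφp)) (hdiff _ _ (ht.smoothB l p hp hψp))).continuousAt
    (frontier_subset_closure hp) hc'
  have hval : h p = if k = l then 1 else 0 := by
    simp only [hh, hs.bdry k p hp hφp, ht.bdry l p hp hψp]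
    simp [Pi.single_apply, eq_comm]
  intro x hx
  rw [← hval, hcp]
  exact hc' x hx

end Vale.Agent.P088
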