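import Vale.Agent.P088.ParFrame
namespace Vale.Agent.P088
open MeasureTheory Matrix Filter Topology
open scoped ContDiff
variable {n N : ℕ}
variable {Ω : Set (Sp n)} {g : Sp n → Matrix (Fin n) (Fin n) ℝ}
  {A : Sp n → Fin n → Matrix (Fin N) (Fin N) ℂ}

lemma eq_of_gram {a b : Fib N} (haa : ∑ m, star (a m) * a m = 1)
    (hbb : ∑ m, star (b m) * b m = 1) (hab : ∑ m, star (a m) * b m = 1) : a = b := by
  have h : ∑ m, Complex.normSq (a m - b m) = 0 := by
    have e : ∀ m, Complex.normSq (a m - b m) = (star (a m) * a m).re + (star (b m) * b m).re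
        - 2 * (star (a m) * b m).re := by
      intro m
      simp only [Complex.normSq_apply, Complex.star_def, Complex.mul_re, Complex.conj_re,
        Complex.conj_im, Complex.sub_re, Complex.sub_im]
      ring
    simp only [e, Finset.sum_add_distrib, Finset.sum_sub_distrib, ← Finset.mul_sum,
      ← Complex.re_sum, haa, hbb, hab]
    norm_num
  have h2 := (Finset.sum_eq_zero_iff_of_nonneg (fun m _ => Complex.normSq_nonneg _)).1 h
  funext m
  exact sub_eq_zero.1 (Complex.normSq_eq_zero.1 (h2 m (Finset.mem_univ m)))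

lemma IsParFrame.eq (ho : IsOpen Ω) (hc : IsPreconnected Ω) (hA : IsUnitaryConn Ω A)
    {φ ψ : Sp n → ℝ} {s t : Fin N → Sp n → Fib N} (hs : IsParFrame Ω A φ s)
    (ht : IsParFrame Ω A ψ t) {p : Sp n} (hp : p ∈ frontier Ω) (hφp : 0 < φ p) (hψp : 0 < ψ p)
    (k : Fin N) : ∀ x ∈ Ω, s k x = t k x := by
  intro x hx
  refine eq_of_gram ?_ ?_ ?_
  · simpa using hs.gram ho hc hA hs hp hφp hφp k k x hx
  · simpa using ht.gram ho hc hA ht hp hψp hψp k k x hx
  · simpa using hs.gram ho hc hA ht hp hφp hψp k k x hx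

lemma exists_bump {O : Set (Sp n)} (hO : IsOpen O) {p : Sp n} (hp : p ∈ O) :
    ∃ φ : Sp n → ℝ, ContDiff ℝ ∞ φ ∧ (∀ x, 0 ≤ φ x) ∧ tsupport φ ⊆ O ∧ 0 < φ p := by
  obtain ⟨f, h1, _, h3, h4, h5⟩ := exists_contDiff_tsupport_subset (n := ⊤) (hO.mem_nhds hp)
  exact ⟨f, h3, fun x => (h4 ⟨x, rfl⟩).1, h1, by rw [h5]; exact one_pos⟩

lemma supp_of_tsupport {O : Set (Sp n)} {φ : Sp n → ℝ} (h : tsupport φ ⊆ O) :
    closure {x | x ∈ frontier Ω ∧ φ x ≠ 0} ⊆ frontier Ω ∩ O := by
  have h1 : {x | x ∈ frontier Ω ∧ φ x ≠ 0} ⊆ frontier Ω ∩ tsupport φ :=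
    fun x hx => ⟨hx.1, subset_tsupport _ hx.2⟩
  exact (closure_minimal h1 (isClosed_frontier.inter (isClosed_tsupport _))).trans
    (Set.inter_subset_inter_right _ h)

lemma tsupport_add_subset {O : Set (Sp n)} {φ ψ : Sp n → ℝ} (h1 : tsupport φ ⊆ O)
    (h2 : tsupport ψ ⊆ O) : tsupport (fun x => φ x + ψ x) ⊆ O := by
  have : Function.support (fun x => φ x + ψ x) ⊆ tsupport φ ∪ tsupport ψ := by
    intro x hx
    by_contra hcon
    rw [Set.mem_union, not_or] at hcon
    have e1 : φ x = 0 := by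
      by_contra h
      exact hcon.1 (subset_tsupport _ h)
    have e2 : ψ x = 0 := by
      by_contra h
      exact hcon.2 (subset_tsupport _ h)
    exact hx (by simp [e1, e2])
  exact (closure_minimal this ((isClosed_tsupport _).union (isClosed_tsupport _))).trans
    (Set.union_subset h1 h2)

end Vale.Agent.P088
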