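import Vale.Agent.P088.ParUnique
namespace Vale.Agent.P088
open MeasureTheory Matrix Filter Topology
open scoped ContDiff
variable {n N : ℕ}
variable {Ω : Set (Sp n)} {g : Sp n → Matrix (Fin n) (Fin n) ℝ}
  {A : Sp n → Fin n → Matrix (Fin N) (Fin N) ℂ}

lemma contDiffAt_star_apply {s : Sp n → Fib N} {x : Sp n} (h : ContDiffAt ℝ ∞ s x) (l : Fin N) :
    ContDiffAt ℝ ∞ (fun y => star (s y l)) x :=
  Complex.conjCLE.contDiff.contDiffAt.comp x (contDiffAt_pi.1 h l)

lemma star_single_apply (k l : Fin N) :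
    star ((Pi.single k 1 : Fib N) l) = (1 : Matrix (Fin N) (Fin N) ℂ) k l := by
  simp only [Matrix.one_apply, Pi.single_apply]
  split_ifs with h1 h2 h2
  · simp
  · exact absurd h1.symm h2
  · exact absurd h2.symm h1
  · simp

theorem patch_trivial (ho : IsOpen Ω) (hb : Bornology.IsBounded Ω) (hc : IsPreconnected Ω)
    (hnull : volume (frontier Ω) = 0) (hg : IsMetric Ω g) (hA : IsUnitaryConn Ω A)
    {O : Set (Sp n)} (hO : IsOpen O) (hne : (frontier Ω ∩ O).Nonempty)
    (hsame : SameData Ω (frontier Ω ∩ O) g 0 g A) :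
    ∃ U : Sp n → Matrix (Fin N) (Fin N) ℂ,
      (∀ k l, ContDiffOn ℝ ∞ (fun x => U x k l) (Ω ∪ frontier Ω ∩ O)) ∧
      (∀ x ∈ Ω ∪ frontier Ω ∩ O, U x ∈ Matrix.unitaryGroup (Fin N) ℂ) ∧
      (∀ x ∈ frontier Ω ∩ O, U x = 1) ∧
      ∀ x ∈ Ω, ∀ i, A x i = (U x)⁻¹ * dmat U x i := by
  classical
  obtain ⟨p₀, hp₀⟩ := hne
  obtain ⟨φ₀, hφ₀s, hφ₀n, hφ₀t, hφ₀p⟩ := exists_bump hO hp₀.2
  obtain ⟨s₀, hs₀⟩ := exists_parFrame ho hb hc hnull hg hA hsame hφ₀s (fun x _ => hφ₀n x)
    (supp_of_tsupport hφ₀t) hp₀.1 hφ₀p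
  set V : Sp n → Matrix (Fin N) (Fin N) ℂ := fun x => Matrix.of fun k l => star (s₀ k x l) with hV
  set U : Sp n → Matrix (Fin N) (Fin N) ℂ := fun x => if x ∈ Ω then V x else 1 with hU
  have hUΩ : ∀ x ∈ Ω, U x = V x := fun x hx => if_pos hx
  have hUev : ∀ x ∈ Ω, U =ᶠ[𝓝 x] V := fun x hx => by
    filter_upwards [ho.mem_nhds hx] with y hy using hUΩ y hy
  have hnotΩ : ∀ x ∈ frontier Ω, x ∉ Ω := by
    intro x hx hxΩ
    rw [ho.frontier_eq] at hx
    exact hx.2 hxΩ
  have hUΓ : ∀ x ∈ frontier Ω, U x = 1 := fun x hx => if_neg (hnotΩ x hx)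
  have hunit : ∀ x ∈ Ω, V x ∈ Matrix.unitaryGroup (Fin N) ℂ := by
    intro x hx
    rw [Matrix.mem_unitaryGroup_iff]
    ext k l
    rw [Matrix.mul_apply]
    simp only [hV, Matrix.star_apply, Matrix.of_apply, star_star]
    rw [hs₀.gram ho hc hA hs₀ hp₀.1 hφ₀p hφ₀p k l x hx, Matrix.one_apply]
  refine ⟨U, ?_, ?_, fun x hx => hUΓ x hx.1, ?_⟩
  · intro k l x hx
    rcases hx with hxΩ | hxΓ
    · have h1 : ContDiffAt ℝ ∞ (fun y => V y k l) x := contDiffAt_star_apply (hs₀.smoothI k x hxΩ) l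
      have h2 : (fun y => U y k l) =ᶠ[𝓝 x] fun y => V y k l := by
        filter_upwards [hUev x hxΩ] with y hy
        rw [hy]
      exact (h1.congr_of_eventuallyEq h2).contDiffWithinAt
    · obtain ⟨φ₁, hφ₁s, hφ₁n, hφ₁t, hφ₁p⟩ := exists_bump hO hxΓ.2
      set ψ : Sp n → ℝ := fun y => φ₀ y + φ₁ y with hψ
      have hψs : ContDiff ℝ ∞ ψ := hφ₀s.add hφ₁s
      have hψp₀ : 0 < ψ p₀ := by
        have := hφ₁n p₀
        simp only [hψ]
        linarith
      have hψx : 0 < ψ x := by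
        have := hφ₀n x
        simp only [hψ]
        linarith
      obtain ⟨t, ht⟩ := exists_parFrame ho hb hc hnull hg hA hsame hψs
        (fun y _ => add_nonneg (hφ₀n y) (hφ₁n y))
        (supp_of_tsupport (tsupport_add_subset hφ₀t hφ₁t)) hp₀.1 hψp₀
      have heq := hs₀.eq ho hc hA ht hp₀.1 hφ₀p hψp₀ k
      have hcd : ContDiffAt ℝ ∞ (fun y => star (t k y l)) x :=
        contDiffAt_star_apply (ht.smoothB k x hxΓ.1 hψx) l
      have hB : ∀ y ∈ frontier Ω, 0 < ψ y → U y k l = star (t k y l) := by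
        intro y hy hyψ
        rw [hUΓ y hy, ht.bdry k y hy hyψ, star_single_apply]
      refine hcd.contDiffWithinAt.congr_of_eventuallyEq ?_ (hB x hxΓ.1 hψx)
      have hopen : IsOpen {y | 0 < ψ y} := isOpen_lt continuous_const hψs.continuous
      filter_upwards [self_mem_nhdsWithin, mem_nhdsWithin_of_mem_nhds (hopen.mem_nhds hψx)]
        with y hy hyψ
      rcases hy with hyΩ | hyΓ
      · rw [hUΩ y hyΩ]
        simp only [hV, Matrix.of_apply, heq y hyΩ]
      · exact hB y hyΓ.1 hyψ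
  · intro x hx
    rcases hx with hxΩ | hxΓ
    · rw [hUΩ x hxΩ]
      exact hunit x hxΩ
    · rw [hUΓ x hxΓ.1]
      exact one_mem _
  · intro x hx i
    have hd0 : dmat U x i = dmat V x i := by
      ext k l
      simp only [dmat, Matrix.of_apply, dcoord]
      have h2 : (fun y => U y k l) =ᶠ[𝓝 x] fun y => V y k l := by
        filter_upwards [hUev x hx] with y hy
        rw [hy]
      rw [h2.fderiv_eq]
    have hd : dmat V x i = V x * A x i := by
      ext k l
      simp only [dmat, hV, Matrix.of_apply]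
      rw [dcoord_star, ← dcoord_apply_at ((hs₀.smoothI k x hx).differentiableAt (by simp)),
        dcoord_of_cov_eq_zero (hs₀.par k x hx), Matrix.mul_apply]
      have hsk := hA.skew x (subset_closure hx) i
      have h2 : ∀ m, A x i m l = - star (A x i l m) := by
        intro m
        have := congrFun (congrFun hsk m) l
        simp only [Matrix.conjTranspose_apply, Matrix.neg_apply] at this
        rw [this]; simp
      simp only [Pi.neg_apply, mulVec, dotProduct, star_neg, star_sum, star_mul', Matrix.of_apply,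
        h2, mul_neg, Finset.sum_neg_distrib]
      congr 1
      exact Finset.sum_congr rfl fun m _ => mul_comm _ _
    have hdet : IsUnit (V x).det :=
      Matrix.isUnit_det_of_right_inverse (Matrix.mem_unitaryGroup_iff.1 (hunit x hx))
    rw [hd0, hd, hUΩ x hx, Matrix.nonsing_inv_mul_cancel_left _ _ hdet]

end Vale.Agent.P088
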