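import Vale.Agent.P088.Energy
import Vale.Agent.P088.Frame

namespace Vale.Agent.P088

open MeasureTheory Matrix
open scoped ContDiff

variable {n N : ℕ}


/-- real gradient components -/
noncomputable def rgrad (w : Sp n → ℝ) (x : Sp n) : Fin n → ℝ := fun i => dcoord w x i

/-- real bilinear form of a matrix -/
noncomputable def qf (P : Matrix (Fin n) (Fin n) ℝ) (X Y : Fin n → ℝ) : ℝ := X ⬝ᵥ (P *ᵥ Y)

/-- scalar Dirichlet form -/
noncomputable def sform (Ω : Set (Sp n)) (g : Sp n → Matrix (Fin n) (Fin n) ℝ)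
    (w η : Sp n → ℝ) : ℝ := ∫ x in closure Ω, qf (cond g x) (rgrad w x) (rgrad η x)

/-- weakly harmonic real functions -/
structure IsWeakHarm (Ω : Set (Sp n)) (g : Sp n → Matrix (Fin n) (Fin n) ℝ) (w : Sp n → ℝ) :
    Prop where
  smooth : ContDiff ℝ ∞ w
  weak : ∀ η : Sp n → ℝ, ContDiff ℝ ∞ η → (∀ x ∈ frontier Ω, η x = 0) → sform Ω g w η = 0

lemma qf_add_right (P : Matrix (Fin n) (Fin n) ℝ) (X Y Z : Fin n → ℝ) :
    qf P X (Y + Z) = qf P X Y + qf P X Z := by
  simp [qf, mulVec_add, dotProduct_add]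

lemma qf_add_left (P : Matrix (Fin n) (Fin n) ℝ) (X Y Z : Fin n → ℝ) :
    qf P (X + Y) Z = qf P X Z + qf P Y Z := by
  simp [qf, add_dotProduct]

lemma qf_smul_right (P : Matrix (Fin n) (Fin n) ℝ) (c : ℝ) (X Y : Fin n → ℝ) :
    qf P X (c • Y) = c * qf P X Y := by
  simp [qf, mulVec_smul, dotProduct_smul]

lemma qf_smul_left (P : Matrix (Fin n) (Fin n) ℝ) (c : ℝ) (X Y : Fin n → ℝ) :
    qf P (c • X) Y = c * qf P X Y := by
  simp [qf, smul_dotProduct]

lemma qf_comm {P : Matrix (Fin n) (Fin n) ℝ} (hP : P.PosDef) (X Y : Fin n → ℝ) :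
    qf P X Y = qf P Y X := by
  have h : Pᵀ = P := by
    have := hP.isHermitian
    simpa [Matrix.IsHermitian, conjTranspose_eq_transpose_of_trivial] using this
  unfold qf
  rw [dotProduct_mulVec, ← mulVec_transpose, h, dotProduct_comm]

lemma qf_self_nonneg {P : Matrix (Fin n) (Fin n) ℝ} (hP : P.PosDef) (X : Fin n → ℝ) :
    0 ≤ qf P X X := by
  simpa [qf] using hP.posSemidef.dotProduct_mulVec_nonneg X

lemma eq_zero_of_qf_self {P : Matrix (Fin n) (Fin n) ℝ} (hP : P.PosDef) (X : Fin n → ℝ)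
    (h : qf P X X = 0) : X = 0 := by
  by_contra hne
  have := hP.dotProduct_mulVec_pos hne
  simp only [star_trivial] at this
  unfold qf at h
  linarith

lemma qf_eq_sum (P : Matrix (Fin n) (Fin n) ℝ) (X Y : Fin n → ℝ) :
    qf P X Y = ∑ i, ∑ j, P i j * (X i * Y j) := by
  simp only [qf, dotProduct, mulVec, Finset.mul_sum]
  refine Finset.sum_congr rfl fun i _ => Finset.sum_congr rfl fun j _ => ?_
  ring



lemma dcoord_ofReal {η : Sp n → ℝ} (hη : ContDiff ℝ ∞ η) (x : Sp n) (i : Fin n) :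
    dcoord (fun y => ((η y : ℝ) : ℂ)) x i = ((dcoord η x i : ℝ) : ℂ) := by
  have h1 : DifferentiableAt ℝ η x := (hη.differentiable (by simp)) x
  unfold dcoord
  have := (Complex.ofRealCLM.hasFDerivAt.comp x h1.hasFDerivAt).fderiv
  have h2 : (fun y => ((η y : ℝ) : ℂ)) = (⇑Complex.ofRealCLM ∘ η) := rfl
  rw [h2, this]
  simp

lemma dcoord_re {a : Sp n → ℂ} (ha : ContDiff ℝ ∞ a) (x : Sp n) (i : Fin n) :
    dcoord (fun y => (a y).re) x i = (dcoord a x i).re := by
  have h1 : DifferentiableAt ℝ a x := (ha.differentiable (by simp)) x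
  unfold dcoord
  have := (Complex.reCLM.hasFDerivAt.comp x h1.hasFDerivAt).fderiv
  have h2 : (fun y => (a y).re) = (⇑Complex.reCLM ∘ a) := rfl
  rw [h2, this]
  simp

/-- the section `η e_l` -/
noncomputable def sec (l : Fin N) (η : Sp n → ℝ) : Sp n → Fib N :=
  fun x => Pi.single l ((η x : ℝ) : ℂ)

lemma contDiff_ofReal {η : Sp n → ℝ} (hη : ContDiff ℝ ∞ η) :
    ContDiff ℝ ∞ (fun y => ((η y : ℝ) : ℂ)) :=
  Complex.ofRealCLM.contDiff.comp hη

lemma contDiff_re {a : Sp n → ℂ} (ha : ContDiff ℝ ∞ a) : ContDiff ℝ ∞ (fun y => (a y).re) :=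
  Complex.reCLM.contDiff.comp ha

lemma contDiff_sec (l : Fin N) {η : Sp n → ℝ} (hη : ContDiff ℝ ∞ η) : ContDiff ℝ ∞ (sec l η) := by
  rw [contDiff_pi]
  intro k
  by_cases h : k = l
  · subst h
    simpa [sec] using contDiff_ofReal hη
  · simpa [sec, h] using (contDiff_const : ContDiff ℝ ∞ (fun _ : Sp n => (0 : ℂ)))

lemma cov_zero_sec (l : Fin N) {η : Sp n → ℝ} (hη : ContDiff ℝ ∞ η) (x : Sp n) (i : Fin n) :
    cov (0 : Sp n → Fin n → Matrix (Fin N) (Fin N) ℂ) (sec l η) x i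
      = Pi.single l ((dcoord η x i : ℝ) : ℂ) := by
  funext k
  simp only [cov, Pi.zero_apply, zero_mulVec, add_zero]
  rw [dcoord_apply (contDiff_sec l hη)]
  by_cases h : k = l
  · subst h
    simpa [sec] using dcoord_ofReal hη x i
  · simp [sec, h, dcoord]

lemma cov_zero_apply {u : Sp n → Fib N} (x : Sp n) (i : Fin n) :
    cov (0 : Sp n → Fin n → Matrix (Fin N) (Fin N) ℂ) u x i = dcoord u x i := by
  simp [cov]



lemma re_pair_single (P : Matrix (Fin n) (Fin n) ℝ) (X : Fin n → Fib N) (l : Fin N)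
    (d : Fin n → ℝ) :
    (pair P X (fun j => Pi.single l ((d j : ℝ) : ℂ))).re = qf P (fun i => (X i l).re) d := by
  rw [qf_eq_sum]
  simp only [pair, Complex.re_sum]
  refine Finset.sum_congr rfl fun i _ => Finset.sum_congr rfl fun j _ => ?_
  have : X i ⬝ᵥ star (Pi.single l ((d j : ℝ) : ℂ) : Fib N) = X i l * ((d j : ℝ) : ℂ) := by
    rw [← Pi.single_star]
    simp
  rw [this]
  simp

variable {Ω : Set (Sp n)} {g : Sp n → Matrix (Fin n) (Fin n) ℝ}

lemma continuous_rgrad {w : Sp n → ℝ} (hw : ContDiff ℝ ∞ w) : Continuous (rgrad w) :=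
  continuous_pi fun i => continuous_dcoord hw i

lemma continuousOn_qf_cond (hg : IsMetric Ω g) {X Y : Sp n → Fin n → ℝ}
    (hX : ContinuousOn X (closure Ω)) (hY : ContinuousOn Y (closure Ω)) :
    ContinuousOn (fun x => qf (cond g x) (X x) (Y x)) (closure Ω) := by
  simp only [qf_eq_sum]
  refine continuousOn_finsetSum _ fun i _ => continuousOn_finsetSum _ fun j _ => ?_
  exact (continuousOn_cond hg i j).mul
    (((continuous_apply i).comp_continuousOn hX).mul ((continuous_apply j).comp_continuousOn hY))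

lemma re_dens_zero_sec (g : Sp n → Matrix (Fin n) (Fin n) ℝ) {u : Sp n → Fib N}
    (hu : ContDiff ℝ ∞ u) (l : Fin N)
    {η : Sp n → ℝ} (hη : ContDiff ℝ ∞ η) (x : Sp n) :
    (dens g (0 : Sp n → Fin n → Matrix (Fin N) (Fin N) ℂ) u (sec l η) x).re
      = qf (cond g x) (rgrad (fun y => (u y l).re) x) (rgrad η x) := by
  rw [dens_eq]
  have h1 : cov (0 : Sp n → Fin n → Matrix (Fin N) (Fin N) ℂ) (sec l η) x
      = fun j => Pi.single l ((rgrad η x j : ℝ) : ℂ) := by
    funext j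
    exact cov_zero_sec l hη x j
  rw [h1, re_pair_single]
  congr 1
  funext i
  simp only [rgrad, cov_zero_apply]
  rw [dcoord_re (contDiff_apply' hu l), dcoord_apply hu]

lemma isUnitaryConn_zero (Ω : Set (Sp n)) :
    IsUnitaryConn Ω (0 : Sp n → Fin n → Matrix (Fin N) (Fin N) ℂ) where
  smooth := fun _ _ _ => contDiff_const
  skew := fun _ _ _ => by simp

lemma re_energy_zero_sec (hb : Bornology.IsBounded Ω) (hg : IsMetric Ω g) {u : Sp n → Fib N}
    (hu : ContDiff ℝ ∞ u) (l : Fin N) {η : Sp n → ℝ} (hη : ContDiff ℝ ∞ η) :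
    (energy Ω g (0 : Sp n → Fin n → Matrix (Fin N) (Fin N) ℂ) u (sec l η)).re
      = sform Ω g (fun y => (u y l).re) η := by
  unfold energy sform
  have hint := integrableOn_dens hb hg (isUnitaryConn_zero Ω) hu (contDiff_sec l hη)
  have h0 := integral_re hint
  have h1 : (∫ x in closure Ω, dens g 0 u (sec l η) x).re
      = ∫ x in closure Ω, (dens g 0 u (sec l η) x).re := by
    simpa using h0.symm
  rw [h1]
  exact integral_congr_ae (Filter.Eventually.of_forall fun x => re_dens_zero_sec g hu l hη x)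

/-- the real part of the `l`-th component of a solution for the trivial connection is weakly
harmonic -/
lemma IsSol.isWeakHarm (hb : Bornology.IsBounded Ω) (hg : IsMetric Ω g) {f u : Sp n → Fib N}
    (hu : IsSol Ω g (0 : Sp n → Fin n → Matrix (Fin N) (Fin N) ℂ) f u) (l : Fin N) :
    IsWeakHarm Ω g (fun y => (u y l).re) where
  smooth := contDiff_re (contDiff_apply' hu.smooth l)
  weak := by
    intro η hη h0
    rw [← re_energy_zero_sec hb hg hu.smooth l hη,
      hu.weak (sec l η) (contDiff_sec l hη) (fun x hx => by simp [sec, h0 x hx])]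
    simp


end Vale.Agent.P088
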