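import Vale.Agent.P088.Scalar
namespace Vale.Agent.P088
open MeasureTheory Matrix
open scoped ContDiff

variable {n N : ℕ}
variable {Ω : Set (Sp n)} {g : Sp n → Matrix (Fin n) (Fin n) ℝ}

/-- a nonnegative continuous function on `closure Ω` with zero integral vanishes -/
lemma eq_zero_of_setIntegral_eq_zero (ho : IsOpen Ω) (hb : Bornology.IsBounded Ω)
    {F : Sp n → ℝ} (hF : ContinuousOn F (closure Ω)) (hnn : ∀ x ∈ closure Ω, 0 ≤ F x)
    (h : ∫ x in closure Ω, F x = 0) : ∀ x ∈ closure Ω, F x = 0 := by
  have hint : IntegrableOn F (closure Ω) := hF.integrableOn_compact hb.isCompact_closure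
  have hnn' : 0 ≤ᵐ[volume.restrict (closure Ω)] F :=
    (ae_restrict_iff' isClosed_closure.measurableSet).2 (Filter.Eventually.of_forall hnn)
  have hz := (integral_eq_zero_iff_of_nonneg_ae hnn' hint).1 h
  have hsub : closure Ω ⊆ closure (interior (closure Ω)) :=
    closure_mono (interior_maximal subset_closure ho)
  have := Measure.eqOn_of_ae_eq hz hF continuousOn_const hsub
  intro x hx
  simpa using this hx

lemma dcoord_comp_real {B : ℝ → ℝ} (hB : ContDiff ℝ ∞ B) {w : Sp n → ℝ} (hw : ContDiff ℝ ∞ w)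
    (x : Sp n) (i : Fin n) :
    dcoord (fun y => B (w y)) x i = deriv B (w x) * dcoord w x i := by
  have h1 : DifferentiableAt ℝ w x := (hw.differentiable (by simp)) x
  have h2 : DifferentiableAt ℝ B (w x) := (hB.differentiable (by simp)) (w x)
  unfold dcoord
  have := (h2.hasDerivAt.comp_hasFDerivAt x h1.hasFDerivAt).fderiv
  have h3 : (fun y => B (w y)) = B ∘ w := rfl
  rw [h3, this]
  simp

lemma dcoord_neg' {w : Sp n → ℝ} (x : Sp n) (i : Fin n) :
    dcoord (fun y => - w y) x i = - dcoord w x i := by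
  unfold dcoord
  rw [fderiv_fun_neg]
  simp

lemma continuous_deriv_of_contDiff {B : ℝ → ℝ} (hB : ContDiff ℝ ∞ B) : Continuous (deriv B) :=
  hB.continuous_deriv (by simp)

/-- weak minimum principle -/
theorem IsWeakHarm.nonneg (ho : IsOpen Ω) (hb : Bornology.IsBounded Ω) (hc : IsPreconnected Ω)
    (hne : (frontier Ω).Nonempty) (hg : IsMetric Ω g) {w : Sp n → ℝ} (hw : IsWeakHarm Ω g w)
    (h0 : ∀ x ∈ frontier Ω, 0 ≤ w x) : ∀ x ∈ closure Ω, 0 ≤ w x := by
  have hB : ContDiff ℝ ∞ expNegInvGlue := expNegInvGlue.contDiff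
  have hnw : ContDiff ℝ ∞ (fun y => - w y) := hw.smooth.neg
  set η : Sp n → ℝ := fun y => expNegInvGlue (- w y) with hη
  have hηs : ContDiff ℝ ∞ η := hB.comp hnw
  have hη0 : ∀ x ∈ frontier Ω, η x = 0 := fun x hx =>
    expNegInvGlue.zero_of_nonpos (by linarith [h0 x hx])
  have hgrad : ∀ x, rgrad η x = (-(deriv expNegInvGlue (- w x))) • rgrad w x := by
    intro x
    funext i
    simp only [rgrad, Pi.smul_apply, smul_eq_mul, hη]
    rw [dcoord_comp_real hB hnw, dcoord_neg']
    ring
  have h1 := hw.weak η hηs hη0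
  unfold sform at h1
  simp only [hgrad, qf_smul_right] at h1
  have h2 : ∫ x in closure Ω, deriv expNegInvGlue (- w x) *
      qf (cond g x) (rgrad w x) (rgrad w x) = 0 := by
    have : ∀ x, -deriv expNegInvGlue (-w x) * qf (cond g x) (rgrad w x) (rgrad w x)
        = -(deriv expNegInvGlue (-w x) * qf (cond g x) (rgrad w x) (rgrad w x)) := by
      intro x; ring
    simp only [this, integral_neg, neg_eq_zero] at h1
    exact h1
  have hcont : ContinuousOn (fun x => deriv expNegInvGlue (- w x) *
      qf (cond g x) (rgrad w x) (rgrad w x)) (closure Ω) :=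
    (((continuous_deriv_of_contDiff hB).comp hnw.continuous).continuousOn).mul
      (continuousOn_qf_cond hg (continuous_rgrad hw.smooth).continuousOn
        (continuous_rgrad hw.smooth).continuousOn)
  have h3 := eq_zero_of_setIntegral_eq_zero ho hb hcont (fun x hx =>
    mul_nonneg expNegInvGlue.monotone.deriv_nonneg
      (qf_self_nonneg (cond_posDef (hg.posDef x hx)) _)) h2
  have hd : Ω.EqOn (fderiv ℝ η) 0 := by
    intro x hx
    refine clm_eq_zero_of_single _ fun i => ?_
    have h4 := congrFun (hgrad x) i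
    simp only [rgrad, Pi.smul_apply, smul_eq_mul] at h4
    change dcoord η x i = 0
    rw [h4]
    rcases mul_eq_zero.1 (h3 x (subset_closure hx)) with h5 | h5
    · rw [h5]; simp
    · have := eq_zero_of_qf_self (cond_posDef (hg.posDef x (subset_closure hx))) _ h5
      have h6 := congrFun this i
      simp only [rgrad, Pi.zero_apply] at h6
      rw [h6]; simp
  obtain ⟨c, hc'⟩ := ho.exists_is_const_of_fderiv_eq_zero hc
    (hηs.differentiable (by simp)).differentiableOn hd
  have hcl : closure Ω ⊆ {y | η y = c} :=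
    closure_minimal (fun y hy => hc' y hy) (isClosed_eq hηs.continuous continuous_const)
  obtain ⟨p, hp⟩ := hne
  have hc0 : c = 0 := by
    rw [← hcl (frontier_subset_closure hp)]
    exact hη0 p hp
  intro x hx
  have h7 : η x = 0 := (hcl hx).trans hc0
  have := expNegInvGlue.zero_iff_nonpos.1 h7
  linarith

end Vale.Agent.P088
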